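import Mathlib

/-!
Definitions for P064: counting copies of a graph on the vertex set `Fin n`.
-/

namespace Vale.Agent.Lib.P064

variable {n : ℕ}

/-- The number of subgraphs of `G` isomorphic to `F`, for graphs on the vertex set `Fin n`.
A subgraph is identified with its edge set (a spanning subgraph on `Fin n`). -/
noncomputable def N (G F : SimpleGraph (Fin n)) : ℕ :=
  Set.ncard {G' : SimpleGraph (Fin n) | G' ≤ G ∧ Nonempty (F ≃g G')}

/-- The number of edges of `F`. -/
noncomputable def e (F : SimpleGraph (Fin n)) : ℕ :=
  F.edgeSet.ncard

end Vale.Agent.Lib.P064
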