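import Mathlib
import Vale.Agent.Lib.P064.Defs

namespace Vale.Agent.Lib.P064

open Finset

open scoped Classical

variable {n : ℕ}

abbrev Pm (n : ℕ) := Equiv.Perm (Fin n)

/-- Image of a graph under a permutation. -/
def img (p : Pm n) (F : SimpleGraph (Fin n)) : SimpleGraph (Fin n) := F.comap p.symm

lemma img_adj (p : Pm n) (F : SimpleGraph (Fin n)) (x y : Fin n) :
    (img p F).Adj x y ↔ F.Adj (p.symm x) (p.symm y) := Iff.rfl

@[simp] lemma img_adj_apply (p : Pm n) (F : SimpleGraph (Fin n)) (x y : Fin n) :
    (img p F).Adj (p x) (p y) ↔ F.Adj x y := by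
  simp [img_adj]

lemma img_one (F : SimpleGraph (Fin n)) : img (1 : Pm n) F = F := by
  ext x y; exact Iff.rfl

lemma img_mul (p r : Pm n) (F : SimpleGraph (Fin n)) : img (p * r) F = img p (img r F) := by
  ext x y
  simp [img_adj, Equiv.Perm.mul_def]

lemma img_le_iff (p : Pm n) (F G : SimpleGraph (Fin n)) :
    img p F ≤ G ↔ ∀ x y, F.Adj x y → G.Adj (p x) (p y) := by
  constructor
  · intro h x y hxy
    exact h ((img_adj_apply p F x y).2 hxy)
  · intro h x y hxy
    have := h _ _ ((img_adj p F x y).1 hxy)
    simpa using this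

lemma img_injective (p : Pm n) : Function.Injective (img p) := by
  intro A B h
  ext x y
  have := congrArg (fun G => G.Adj (p x) (p y)) h
  simpa using this

/-- Isomorphism to the image. -/
noncomputable def imgIso (p : Pm n) (F : SimpleGraph (Fin n)) : F ≃g img p F where
  toEquiv := p
  map_rel_iff' := by
    intro a b
    exact img_adj_apply p F a b

lemma exists_perm_of_iso {F G' : SimpleGraph (Fin n)} (i : F ≃g G') :
    ∃ p : Pm n, img p F = G' := by
  refine ⟨i.toEquiv, ?_⟩
  ext x y
  rw [img_adj]
  have h := i.map_rel_iff (a := i.symm x) (b := i.symm y)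
  rw [i.apply_symm_apply, i.apply_symm_apply] at h
  exact h.symm

/-- Permutations carrying `F` into `G`. -/
noncomputable def permsInto (G F : SimpleGraph (Fin n)) : Finset (Pm n) :=
  univ.filter fun p => img p F ≤ G

/-- Stabilizer of `F`. -/
noncomputable def stab (F : SimpleGraph (Fin n)) : Finset (Pm n) :=
  univ.filter fun p => img p F = F

/-- Copies of `F` in `G` as a finset. -/
noncomputable def copiesF (G F : SimpleGraph (Fin n)) : Finset (SimpleGraph (Fin n)) :=
  (permsInto G F).image fun p => img p F

lemma mem_copiesF {G F A : SimpleGraph (Fin n)} :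
    A ∈ copiesF G F ↔ ∃ p : Pm n, img p F ≤ G ∧ img p F = A := by
  simp [copiesF, permsInto]

lemma coe_copiesF (G F : SimpleGraph (Fin n)) :
    (copiesF G F : Set (SimpleGraph (Fin n))) = {G' | G' ≤ G ∧ Nonempty (F ≃g G')} := by
  ext A
  simp only [mem_coe, mem_copiesF, Set.mem_ofPred_eq]
  constructor
  · rintro ⟨p, h, rfl⟩
    exact ⟨h, ⟨imgIso p F⟩⟩
  · rintro ⟨h, ⟨i⟩⟩
    obtain ⟨p, rfl⟩ := exists_perm_of_iso i
    exact ⟨p, h, rfl⟩

lemma N_eq_card (G F : SimpleGraph (Fin n)) : N G F = (copiesF G F).card := by
  rw [N, ← coe_copiesF, Set.ncard_coe_finset]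

lemma card_permsInto (G F : SimpleGraph (Fin n)) :
    (permsInto G F).card = N G F * (stab F).card := by
  classical
  rw [N_eq_card, copiesF, Finset.card_eq_sum_card_image (fun p => img p F) (permsInto G F),
    Finset.sum_const_nat (m := (stab F).card)]
  intro A hA
  obtain ⟨p0, hp0, rfl⟩ := Finset.mem_image.1 hA
  refine Finset.card_bij' (fun p _ => p0⁻¹ * p) (fun r _ => p0 * r) ?_ ?_ ?_ ?_
  · intro p hp
    simp only [mem_filter] at hp
    simp only [stab, mem_filter, mem_univ, true_and]
    rw [img_mul, hp.2]
    rw [← img_mul]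
    simp [img_one]
  · intro r hr
    simp only [stab, mem_filter, mem_univ, true_and] at hr
    simp only [mem_filter]
    have h : img (p0 * r) F = img p0 F := by rw [img_mul, hr]
    refine ⟨?_, h⟩
    simp only [permsInto, mem_filter, mem_univ, true_and]
    rw [h]
    simpa [permsInto] using hp0
  · intro p _
    simp
  · intro r _
    simp

lemma card_permsInto_top (F : SimpleGraph (Fin n)) :
    N ⊤ F * (stab F).card = n.factorial := by
  rw [← card_permsInto]
  have : permsInto ⊤ F = (univ : Finset (Pm n)) := by
    ext p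
    simp [permsInto]
  rw [this, Finset.card_univ, Fintype.card_perm, Fintype.card_fin]

lemma stab_card_pos (F : SimpleGraph (Fin n)) : 0 < (stab F).card := by
  apply Finset.card_pos.2
  exact ⟨1, by simp [stab, img_one]⟩

lemma N_le_top (H F : SimpleGraph (Fin n)) : N H F ≤ N ⊤ F := by
  rw [N_eq_card, N_eq_card]
  apply Finset.card_le_card
  intro A hA
  obtain ⟨p, _, rfl⟩ := mem_copiesF.1 hA
  exact mem_copiesF.2 ⟨p, le_top, rfl⟩

/-! ### Partial maps -/

abbrev PM (n : ℕ) := Fin n → Option (Fin n)

/-- restriction of a permutation to `T` -/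
noncomputable def res (T : Finset (Fin n)) (p : Pm n) : PM n :=
  fun x => if x ∈ T then some (p x) else none

/-- cut a partial map to `T` -/
noncomputable def cut (T : Finset (Fin n)) (g : PM n) : PM n :=
  fun x => if x ∈ T then g x else none

lemma cut_res {W T : Finset (Fin n)} (h : W ⊆ T) (p : Pm n) : cut W (res T p) = res W p := by
  funext x
  by_cases hx : x ∈ W
  · simp [cut, res, hx, h hx]
  · simp [cut, res, hx]

/-- Permutations fixing `T` pointwise. -/
lemma card_fixing (T : Finset (Fin n)) :
    (univ.filter fun r : Pm n => ∀ x ∈ T, r x = x).card = (n - T.card).factorial := by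
  classical
  have h := Equiv.Perm.subtypeEquivSubtypePerm (fun x : Fin n => x ∉ T)
  have h1 : Fintype.card (Equiv.Perm {x : Fin n // x ∉ T}) = (n - T.card).factorial := by
    rw [Fintype.card_perm]
    congr 1
    rw [Fintype.card_subtype_compl]
    simp
  rw [← h1, Fintype.card_congr h, Fintype.card_subtype]
  congr 1
  ext r
  simp

lemma card_fiber_res (T : Finset (Fin n)) (g : PM n) :
    (univ.filter fun p : Pm n => res T p = g).card ≤ (n - T.card).factorial := by
  classical
  rw [← card_fixing T]
  by_cases hne : (univ.filter fun p : Pm n => res T p = g).Nonempty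
  · obtain ⟨p0, hp0⟩ := hne
    simp only [mem_filter, mem_univ, true_and] at hp0
    refine Finset.card_le_card_of_injOn (fun p => p0⁻¹ * p) ?_ ?_
    · intro p hp
      simp only [coe_filter, mem_univ, true_and, Set.mem_ofPred_eq] at hp ⊢
      intro x hx
      have h1 := congrFun (hp.trans hp0.symm) x
      simp only [res, hx, if_true, Option.some.injEq] at h1
      simp [Equiv.Perm.mul_apply, h1]
    · intro p _ r _ h
      simpa using h
  · rw [Finset.not_nonempty_iff_eq_empty] at hne
    rw [hne]
    simp

end Vale.Agent.Lib.P064
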