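import Mathlib
import Vale.Agent.Lib.P064.Base

namespace Vale.Agent.Lib.P064

open Finset

open scoped Classical

variable {n : ℕ}

lemma e_eq_card (G : SimpleGraph (Fin n)) : e G = G.edgeFinset.card := by
  rw [e, Set.ncard_eq_toFinset_card']
  rfl

lemma e_img (p : Pm n) (F : SimpleGraph (Fin n)) : e (img p F) = e F := by
  rw [e, e, ← Nat.card_coe_set_eq, ← Nat.card_coe_set_eq]
  exact (Nat.card_congr (imgIso p F).mapEdgeSet).symm

/-- union of a finite family of graphs -/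
def unionG (Fam : Finset (SimpleGraph (Fin n))) : SimpleGraph (Fin n) where
  Adj x y := ∃ A ∈ Fam, A.Adj x y
  symm := ⟨by
    rintro x y ⟨A, hA, h⟩
    exact ⟨A, hA, h.symm⟩⟩
  loopless := ⟨by
    rintro x ⟨A, _, h⟩
    exact A.loopless.1 x h⟩

lemma unionG_adj (Fam : Finset (SimpleGraph (Fin n))) (x y : Fin n) :
    (unionG Fam).Adj x y ↔ ∃ A ∈ Fam, A.Adj x y := Iff.rfl

lemma unionG_image (p : Pm n) (Fam : Finset (SimpleGraph (Fin n))) :
    unionG (Fam.image (img p)) = img p (unionG Fam) := by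
  ext x y
  simp only [unionG_adj, img_adj, mem_image, exists_exists_and_eq_and]

/-- pairwise edge-disjoint family -/
def EDisj (Fam : Finset (SimpleGraph (Fin n))) : Prop :=
  ∀ A ∈ Fam, ∀ B ∈ Fam, A ≠ B → ∀ x y, A.Adj x y → ¬ B.Adj x y

lemma e_unionG {Fam : Finset (SimpleGraph (Fin n))} (h : EDisj Fam) :
    e (unionG Fam) = ∑ A ∈ Fam, e A := by
  simp_rw [e_eq_card]
  have h1 : (unionG Fam).edgeFinset = Fam.biUnion (fun A => A.edgeFinset) := by
    ext s
    induction s using Sym2.ind with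
    | _ x y =>
      simp only [SimpleGraph.mem_edgeFinset, SimpleGraph.mem_edgeSet, mem_biUnion, unionG_adj]
  rw [h1, Finset.card_biUnion]
  intro A hA B hB hAB
  show Disjoint A.edgeFinset B.edgeFinset
  rw [Finset.disjoint_left]
  intro s hs hs'
  induction s using Sym2.ind with
  | _ x y =>
    simp only [SimpleGraph.mem_edgeFinset, SimpleGraph.mem_edgeSet] at hs hs'
    exact h A hA B hB hAB x y hs hs'

lemma N_top_union_le {F : SimpleGraph (Fin n)} {Fam : Finset (SimpleGraph (Fin n))}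
    (hF : ∀ A ∈ Fam, ∃ p : Pm n, img p F = A) :
    N ⊤ (unionG Fam) ≤ (N ⊤ F).choose Fam.card := by
  rw [N_eq_card, N_eq_card, ← Finset.card_powersetCard]
  refine Finset.card_le_card_of_surjOn unionG ?_
  intro A' hA'
  obtain ⟨p, _, rfl⟩ := mem_copiesF.1 (Finset.mem_coe.1 hA')
  refine ⟨Fam.image (img p), ?_, unionG_image p Fam⟩
  simp only [mem_coe, mem_powersetCard]
  constructor
  · intro B hB
    obtain ⟨A, hA, rfl⟩ := mem_image.1 hB
    obtain ⟨r, rfl⟩ := hF A hA
    refine mem_copiesF.2 ⟨p * r, le_top, ?_⟩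
    rw [img_mul]
  · exact Finset.card_image_of_injective _ (img_injective p)

lemma choose_arith (M r : ℕ) (hr : 1 ≤ r) (y : ℝ) (hy : 0 ≤ y)
    (h : (1 / 2 : ℝ) ≤ (M.choose r : ℝ) * y ^ r) :
    (r : ℝ) ≤ 2 * Real.exp 1 * M * y := by
  by_contra hcon
  push Not at hcon
  have hr0 : (0 : ℝ) < r := by exact_mod_cast hr
  set t : ℝ := Real.exp 1 * M * y / r with ht
  have ht0 : 0 ≤ t := by positivity
  have ht1 : t < 1 / 2 := by
    rw [ht, div_lt_iff₀ hr0]
    linarith
  have h1 : (M.choose r : ℝ) ≤ (M : ℝ) ^ r / r.factorial := Nat.choose_le_pow_div r M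
  have hf : (0 : ℝ) < r.factorial := by exact_mod_cast Nat.factorial_pos r
  have h2 : (r : ℝ) ^ r / r.factorial ≤ Real.exp r :=
    Real.pow_div_factorial_le_exp (r : ℝ) (by positivity) r
  have h3 : (1 : ℝ) / r.factorial ≤ Real.exp r / (r : ℝ) ^ r := by
    rw [div_le_div_iff₀ hf (by positivity)]
    rw [div_le_iff₀ hf] at h2
    linarith
  have h4 : (M.choose r : ℝ) * y ^ r ≤ t ^ r := by
    calc (M.choose r : ℝ) * y ^ r ≤ (M : ℝ) ^ r / r.factorial * y ^ r := by gcongr
      _ = ((M : ℝ) * y) ^ r * (1 / r.factorial) := by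
        rw [mul_pow]; ring
      _ ≤ ((M : ℝ) * y) ^ r * (Real.exp r / (r : ℝ) ^ r) := by gcongr
      _ = t ^ r := by
        have : Real.exp r = Real.exp 1 ^ r := by
          rw [← Real.exp_nat_mul, mul_one]
        rw [ht, this, div_pow, mul_pow, mul_pow, mul_pow]
        field_simp
  have h5 : t ^ r ≤ t := pow_le_of_le_one ht0 (by linarith) (by omega)
  linarith

/-- The edge-disjoint families are controlled by the expected count. -/
lemma card_family_le {H F : SimpleGraph (Fin n)} {Fam : Finset (SimpleGraph (Fin n))} {q : ℝ}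
    (hq : 0 ≤ q)
    (hstar : ∀ F' ≤ H, (1 / 2 : ℝ) ≤ (N ⊤ F' : ℝ) * q ^ e F')
    (hFam : Fam ⊆ copiesF H F) (hED : EDisj Fam) (hne : Fam.Nonempty) :
    (Fam.card : ℝ) ≤ 2 * Real.exp 1 * (N ⊤ F : ℕ) * q ^ e F := by
  have hU : unionG Fam ≤ H := by
    intro x y hxy
    obtain ⟨A, hA, h⟩ := hxy
    obtain ⟨p, hp, rfl⟩ := mem_copiesF.1 (hFam hA)
    exact hp h
  have hperm : ∀ A ∈ Fam, ∃ p : Pm n, img p F = A := by
    intro A hA
    obtain ⟨p, _, rfl⟩ := mem_copiesF.1 (hFam hA)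
    exact ⟨p, rfl⟩
  have he : e (unionG Fam) = Fam.card * e F := by
    rw [e_unionG hED, Finset.sum_const_nat]
    intro A hA
    obtain ⟨p, rfl⟩ := hperm A hA
    exact e_img p F
  have h1 := hstar _ hU
  have h2 := N_top_union_le hperm
  have h3 : (1 / 2 : ℝ) ≤ ((N ⊤ F).choose Fam.card : ℝ) * (q ^ e F) ^ Fam.card := by
    calc (1 / 2 : ℝ) ≤ (N ⊤ (unionG Fam) : ℝ) * q ^ e (unionG Fam) := h1
      _ ≤ ((N ⊤ F).choose Fam.card : ℝ) * q ^ e (unionG Fam) := by
        gcongr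
      _ = _ := by
        rw [he, ← pow_mul, mul_comm (e F)]
  exact choose_arith _ _ (Finset.card_pos.2 hne) _ (by positivity) h3

lemma exists_max_family (C : Finset (SimpleGraph (Fin n))) :
    ∃ Fam ⊆ C, EDisj Fam ∧
      ∀ A ∈ C, A ∉ Fam → ∃ B ∈ Fam, ∃ x y, A.Adj x y ∧ B.Adj x y := by
  classical
  have hne : (C.powerset.filter EDisj).Nonempty := by
    refine ⟨∅, ?_⟩
    simp [EDisj]
  obtain ⟨Fam, hFam, hmax⟩ := Finset.exists_max_image _ Finset.card hne
  simp only [mem_filter, mem_powerset] at hFam hmax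
  refine ⟨Fam, hFam.1, hFam.2, ?_⟩
  intro A hA hAn
  by_contra hcon
  push Not at hcon
  have hnew : insert A Fam ⊆ C ∧ EDisj (insert A Fam) := by
    refine ⟨Finset.insert_subset hA hFam.1, ?_⟩
    intro X hX Y hY hXY x y hx hy
    rw [mem_insert] at hX hY
    rcases hX with rfl | hX <;> rcases hY with rfl | hY
    · exact hXY rfl
    · exact hcon Y hY x y hx hy
    · exact hcon X hX x y hy hx
    · exact hFam.2 X hX Y hY hXY x y hx hy
  have := hmax _ hnew
  rw [Finset.card_insert_of_notMem hAn] at this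
  omega

end Vale.Agent.Lib.P064
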