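import Mathlib
import Vale.Agent.Lib.P064.ED

namespace Vale.Agent.Lib.P064

open Finset

open scoped Classical

variable {n : ℕ}

/-- support of a graph -/
noncomputable def supp (F : SimpleGraph (Fin n)) : Finset (Fin n) :=
  univ.filter fun x => ∃ y, F.Adj x y

lemma mem_supp {F : SimpleGraph (Fin n)} {x : Fin n} : x ∈ supp F ↔ ∃ y, F.Adj x y := by
  simp [supp]

/-- partial homomorphisms with domain `T` -/
noncomputable def PH (F H : SimpleGraph (Fin n)) (T : Finset (Fin n)) : Finset (PM n) :=
  univ.filter fun g => (∀ x, x ∉ T → g x = none) ∧ (∀ x ∈ T, ∃ u, g x = some u) ∧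
    ∀ x y u v, g x = some u → g y = some v → F.Adj x y → H.Adj u v

lemma mem_PH {F H : SimpleGraph (Fin n)} {T : Finset (Fin n)} {g : PM n} :
    g ∈ PH F H T ↔ (∀ x, x ∉ T → g x = none) ∧ (∀ x ∈ T, ∃ u, g x = some u) ∧
    ∀ x y u v, g x = some u → g y = some v → F.Adj x y → H.Adj u v := by
  simp [PH]

lemma res_mem_PH {F H : SimpleGraph (Fin n)} {T : Finset (Fin n)} {p : Pm n}
    (hp : img p F ≤ H) : res T p ∈ PH F H T := by
  rw [mem_PH]
  refine ⟨?_, ?_, ?_⟩
  · intro x hx; simp [res, hx]
  · intro x hx; exact ⟨p x, by simp [res, hx]⟩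
  · intro x y u v hx hy hxy
    by_cases hxT : x ∈ T
    · by_cases hyT : y ∈ T
      · simp only [res, hxT, hyT, if_true, Option.some.injEq] at hx hy
        subst hx; subst hy
        exact (img_le_iff p F H).1 hp x y hxy
      · simp [res, hyT] at hy
    · simp [res, hxT] at hx

lemma cut_mem_PH {F H : SimpleGraph (Fin n)} {T T' : Finset (Fin n)} {g : PM n}
    (hT : T ⊆ T') (hg : g ∈ PH F H T') : cut T g ∈ PH F H T := by
  rw [mem_PH] at hg ⊢
  refine ⟨?_, ?_, ?_⟩
  · intro x hx; simp [cut, hx]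
  · intro x hx
    obtain ⟨u, hu⟩ := hg.2.1 x (hT hx)
    exact ⟨u, by simp [cut, hx, hu]⟩
  · intro x y u v hx hy hxy
    by_cases hxT : x ∈ T
    · by_cases hyT : y ∈ T
      · simp only [cut, hxT, hyT, if_true] at hx hy
        exact hg.2.2 x y u v hx hy hxy
      · simp [cut, hyT] at hy
    · simp [cut, hxT] at hx

/-- The extension lemma: adding a vertex `z` multiplies the number of partial maps by at most
the number `D` of admissible values at `z`. -/
lemma card_ext {A B : Finset (PM n)} {T : Finset (Fin n)} {z : Fin n} {D : ℕ}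
    (h1 : ∀ g ∈ A, cut T g ∈ B)
    (hdom : ∀ g ∈ A, ∀ u, u ∉ T → u ≠ z → g u = none)
    (h2 : ∀ g0 ∈ B, ∃ W : Finset (Fin n), W.card ≤ D ∧
      ∀ g ∈ A, cut T g = g0 → ∃ w ∈ W, g z = some w) :
    A.card ≤ D * B.card := by
  classical
  have hle : A.card ≤ D * (A.image (cut T)).card := by
    apply Finset.card_le_mul_card_image
    intro g0 hg0
    obtain ⟨g', hg', rfl⟩ := mem_image.1 hg0
    obtain ⟨W, hW, hW'⟩ := h2 _ (h1 g' hg')
    calc (A.filter fun g => cut T g = cut T g').card
        ≤ (W.image some).card := by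
          refine Finset.card_le_card_of_injOn (fun g => g z) ?_ ?_
          · intro g hg
            simp only [coe_filter, Set.mem_ofPred_eq] at hg
            obtain ⟨w, hw, hwz⟩ := hW' g hg.1 hg.2
            simp only [coe_image, Set.mem_image, mem_coe]
            exact ⟨w, hw, hwz.symm⟩
          · intro g hg g2 hg2 hz
            simp only [coe_filter, Set.mem_ofPred_eq] at hg hg2
            funext u
            by_cases huT : u ∈ T
            · have := congrFun (hg.2.trans hg2.2.symm) u
              simpa [cut, huT] using this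
            · by_cases huz : u = z
              · subst huz; exact hz
              · rw [hdom g hg.1 u huT huz, hdom g2 hg2.1 u huT huz]
      _ ≤ W.card := Finset.card_image_le
      _ ≤ D := hW
  refine hle.trans ?_
  apply Nat.mul_le_mul_left
  apply Finset.card_le_card
  intro g0 hg0
  obtain ⟨g', hg', rfl⟩ := mem_image.1 hg0
  exact h1 g' hg'

/-- partial homomorphisms with two pinned values -/
noncomputable def Pin (F H : SimpleGraph (Fin n)) (T : Finset (Fin n)) (a b x y : Fin n) :
    Finset (PM n) :=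
  (PH F H T).filter fun g => g a = some x ∧ g b = some y

lemma pin_base (F H : SimpleGraph (Fin n)) (a b x y : Fin n) :
    (Pin F H {a, b} a b x y).card ≤ 1 := by
  rw [Finset.card_le_one]
  intro g hg g' hg'
  simp only [Pin, mem_filter, mem_PH] at hg hg'
  funext u
  by_cases hua : u = a
  · subst hua; rw [hg.2.1, hg'.2.1]
  · by_cases hub : u = b
    · subst hub; rw [hg.2.2, hg'.2.2]
    · have : u ∉ ({a, b} : Finset (Fin n)) := by simp [hua, hub]
      rw [hg.1.1 u this, hg'.1.1 u this]

lemma pin_step {F H : SimpleGraph (Fin n)} {T : Finset (Fin n)} {a b x y z x0 : Fin n} {D : ℕ}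
    (hD : ∀ u, (H.neighborFinset u).card ≤ D) (hx0 : x0 ∈ T) (hadj : F.Adj x0 z)
    (ha : a ∈ T) (hb : b ∈ T) :
    (Pin F H (insert z T) a b x y).card ≤ D * (Pin F H T a b x y).card := by
  refine card_ext (T := T) (z := z) ?_ ?_ ?_
  · intro g hg
    simp only [Pin, mem_filter] at hg ⊢
    refine ⟨cut_mem_PH (Finset.subset_insert z T) hg.1, ?_, ?_⟩
    · simp [cut, ha, hg.2.1]
    · simp [cut, hb, hg.2.2]
  · intro g hg u hu huz
    simp only [Pin, mem_filter, mem_PH] at hg
    exact hg.1.1 u (by simp [hu, huz])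
  · intro g0 hg0
    simp only [Pin, mem_filter, mem_PH] at hg0
    obtain ⟨u0, hu0⟩ := hg0.1.2.1 x0 hx0
    refine ⟨H.neighborFinset u0, hD u0, ?_⟩
    intro g hg hcut
    simp only [Pin, mem_filter, mem_PH] at hg
    obtain ⟨w, hw⟩ := hg.1.2.1 z (by simp)
    refine ⟨w, ?_, hw⟩
    have hgx0 : g x0 = some u0 := by
      have := congrFun hcut x0
      simp only [cut, hx0, if_true] at this
      rw [this, hu0]
    rw [SimpleGraph.mem_neighborFinset]
    exact hg.1.2.2 x0 z u0 w hgx0 hw hadj

/-- A vertex set connected by edges of `F`. -/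
def Conn (F : SimpleGraph (Fin n)) (W : Finset (Fin n)) : Prop :=
  ∀ T ⊆ W, T.Nonempty → T ≠ W → ∃ z ∈ W, z ∉ T ∧ ∃ x ∈ T, F.Adj x z

lemma grow {F : SimpleGraph (Fin n)} {W : Finset (Fin n)} (hconn : Conn F W)
    (P : Finset (Fin n) → Prop)
    (step : ∀ T z x, T ⊆ W → z ∈ W → z ∉ T → x ∈ T → F.Adj x z → P T → P (insert z T)) :
    ∀ T, T ⊆ W → T.Nonempty → P T → P W := by
  suffices h : ∀ k T, (W \ T).card = k → T ⊆ W → T.Nonempty → P T → P W from
    fun T h1 h2 h3 => h _ T rfl h1 h2 h3
  intro k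
  induction k with
  | zero =>
    intro T hk hT _ hP
    have : W \ T = ∅ := Finset.card_eq_zero.1 hk
    have hWT : W ⊆ T := Finset.sdiff_eq_empty_iff_subset.1 this
    rwa [Finset.Subset.antisymm hT hWT] at hP
  | succ k ih =>
    intro T hk hT hne hP
    have hTW : T ≠ W := by
      rintro rfl
      simp at hk
    obtain ⟨z, hz, hzT, x, hx, hadj⟩ := hconn T hT hne hTW
    refine ih (insert z T) ?_ (Finset.insert_subset hz hT) (Finset.insert_nonempty z T)
      (step T z x hT hz hzT hx hadj hP)
    have h1 : W \ insert z T = (W \ T).erase z := by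
      ext u
      simp only [mem_sdiff, mem_insert, mem_erase]
      tauto
    rw [h1, Finset.card_erase_of_mem (by simp [hz, hzT]), hk]
    rfl

lemma card_pin_le {F H : SimpleGraph (Fin n)} {W : Finset (Fin n)} {a b x y : Fin n} {D : ℕ}
    (hconn : Conn F W) (hD : ∀ u, (H.neighborFinset u).card ≤ D)
    (hab : F.Adj a b) (ha : a ∈ W) (hb : b ∈ W) :
    (Pin F H W a b x y).card ≤ D ^ (W.card - 2) := by
  have hne : a ≠ b := hab.ne
  have key := grow hconn
    (fun T => a ∈ T ∧ b ∈ T ∧ (Pin F H T a b x y).card ≤ D ^ (T.card - 2)) ?_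
    {a, b} ?_ ⟨a, by simp⟩ ?_
  · exact key.2.2
  · rintro T z x0 _ _ hzT hx0 hadj ⟨h1, h2, h3⟩
    refine ⟨Finset.mem_insert_of_mem h1, Finset.mem_insert_of_mem h2, ?_⟩
    have h2T : 2 ≤ T.card := by
      have : 1 < T.card := Finset.one_lt_card.2 ⟨a, h1, b, h2, hne⟩
      omega
    rw [Finset.card_insert_of_notMem hzT]
    calc (Pin F H (insert z T) a b x y).card ≤ D * (Pin F H T a b x y).card :=
          pin_step hD hx0 hadj h1 h2
      _ ≤ D * D ^ (T.card - 2) := Nat.mul_le_mul_left _ h3
      _ = D ^ (T.card + 1 - 2) := by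
        rw [← pow_succ']
        congr 1
        omega
  · intro u hu
    simp only [mem_insert, mem_singleton] at hu
    rcases hu with rfl | rfl <;> assumption
  · refine ⟨by simp, by simp, ?_⟩
    rw [Finset.card_pair hne]
    simpa using pin_base F H a b x y

lemma card_le_edges_add_one {F : SimpleGraph (Fin n)} {W : Finset (Fin n)} {a : Fin n}
    (hconn : Conn F W) (ha : a ∈ W) : W.card ≤ F.edgeFinset.card + 1 := by
  let Eg : Finset (Fin n) → Finset (Sym2 (Fin n)) :=
    fun T => F.edgeFinset.filter fun s => ∀ x ∈ s, x ∈ T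
  have key := grow hconn (fun T => T.card ≤ (Eg T).card + 1) ?_ {a} ?_ ⟨a, by simp⟩ ?_
  · have : (Eg W).card ≤ F.edgeFinset.card := Finset.card_filter_le _ _
    omega
  · rintro T z x0 _ _ hzT hx0 hadj h
    have hnot : s(x0, z) ∉ Eg T := by
      simp only [Eg, mem_filter, not_and]
      intro _ hall
      exact hzT (hall z (by simp))
    have hsub : insert s(x0, z) (Eg T) ⊆ Eg (insert z T) := by
      intro s hs
      rw [mem_insert] at hs
      simp only [Eg, mem_filter, SimpleGraph.mem_edgeFinset] at hs ⊢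
      rcases hs with rfl | hs
      · refine ⟨hadj, ?_⟩
        intro u hu
        simp only [Sym2.mem_iff] at hu
        rcases hu with rfl | rfl
        · exact Finset.mem_insert_of_mem hx0
        · exact Finset.mem_insert_self _ _
      · refine ⟨hs.1, ?_⟩
        intro u hu
        exact Finset.mem_insert_of_mem (hs.2 u hu)
    have h2 := Finset.card_le_card hsub
    rw [Finset.card_insert_of_notMem hnot] at h2
    rw [Finset.card_insert_of_notMem hzT]
    omega
  · intro u hu
    rw [mem_singleton] at hu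
    subst hu
    exact ha
  · simp

/-- restrictions to the support of permutations carrying `F` into `H` -/
noncomputable def R (H F : SimpleGraph (Fin n)) : Finset (PM n) :=
  (permsInto H F).image (res (supp F))

lemma img_eq_of_res_eq {F : SimpleGraph (Fin n)} {p r : Pm n}
    (h : res (supp F) p = res (supp F) r) : img p F = img r F := by
  have key : ∀ x ∈ supp F, p x = r x := by
    intro x hx
    have := congrFun h x
    simpa [res, hx] using this
  have h1 : ∀ p r : Pm n, (∀ x ∈ supp F, p x = r x) → img p F ≤ img r F := by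
    intro p r hpr
    rw [img_le_iff]
    intro x y hxy
    have hx : x ∈ supp F := mem_supp.2 ⟨y, hxy⟩
    have hy : y ∈ supp F := mem_supp.2 ⟨x, hxy.symm⟩
    rw [hpr x hx, hpr y hy]
    simpa using hxy
  exact le_antisymm (h1 p r key) (h1 r p (fun x hx => (key x hx).symm))

lemma card_PH_bot (T : Finset (Fin n)) : (PH ⊥ ⊤ T).card ≤ n ^ T.card := by
  induction T using Finset.induction_on with
  | empty =>
    rw [Finset.card_empty, pow_zero, Finset.card_le_one]
    intro g hg g' hg'
    rw [mem_PH] at hg hg'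
    funext u
    rw [hg.1 u (by simp), hg'.1 u (by simp)]
  | insert z T hz ih =>
    rw [Finset.card_insert_of_notMem hz, pow_succ']
    have : (PH ⊥ ⊤ (insert z T)).card ≤ n * (PH ⊥ ⊤ T).card := by
      refine card_ext (T := T) (z := z) ?_ ?_ ?_
      · intro g hg
        exact cut_mem_PH (Finset.subset_insert z T) hg
      · intro g hg u hu huz
        rw [mem_PH] at hg
        exact hg.1 u (by simp [hu, huz])
      · intro g0 _
        refine ⟨univ, by simp, ?_⟩
        intro g hg _
        rw [mem_PH] at hg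
        obtain ⟨w, hw⟩ := hg.2.1 z (by simp)
        exact ⟨w, mem_univ _, hw⟩
    exact this.trans (Nat.mul_le_mul_left _ ih)

lemma N_top_le (F : SimpleGraph (Fin n)) : N ⊤ F ≤ n ^ (supp F).card := by
  refine le_trans ?_ (card_PH_bot (supp F))
  rw [N_eq_card]
  -- pick for each copy a permutation
  have h : ∀ A ∈ copiesF ⊤ F, ∃ p : Pm n, img p F = A := by
    intro A hA
    obtain ⟨p, _, rfl⟩ := mem_copiesF.1 hA
    exact ⟨p, rfl⟩
  choose! f hf using h
  refine Finset.card_le_card_of_injOn (fun A => res (supp F) (f A)) ?_ ?_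
  · intro A _
    exact res_mem_PH (F := ⊥) (H := ⊤) (by simp)
  · intro A hA B hB hAB
    have := img_eq_of_res_eq hAB
    rwa [hf A hA, hf B hB] at this

lemma exists_edge_of_e_pos {F : SimpleGraph (Fin n)} (he : 1 ≤ e F) : ∃ a b, F.Adj a b := by
  rw [e_eq_card] at he
  obtain ⟨s, hs⟩ := Finset.card_pos.1 he
  induction s using Sym2.ind with
  | _ a b =>
    rw [SimpleGraph.mem_edgeFinset, SimpleGraph.mem_edgeSet] at hs
    exact ⟨a, b, hs⟩

/-- Main bound for a connected graph. -/
lemma card_R_conn_le {H F : SimpleGraph (Fin n)} {q : ℝ} {D : ℕ}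
    (hq : 0 ≤ q)
    (hstar : ∀ F' ≤ H, (1 / 2 : ℝ) ≤ (N ⊤ F' : ℝ) * q ^ e F')
    (hD : ∀ u, (H.neighborFinset u).card ≤ D) (he : 1 ≤ e F)
    (hconn : Conn F (supp F)) :
    ((R H F).card : ℝ) ≤
      4 * (e F : ℝ) ^ 2 * (2 * Real.exp 1 * (n : ℝ) ^ (supp F).card * q ^ e F) *
        (D : ℝ) ^ ((supp F).card - 2) := by
  classical
  obtain ⟨Fam, hFamsub, hED, hmax⟩ := exists_max_family (copiesF H F)
  set W := supp F with hW
  have hadjW : ∀ {a b}, F.Adj a b → a ∈ W ∧ b ∈ W := by
    intro a b hab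
    exact ⟨mem_supp.2 ⟨b, hab⟩, mem_supp.2 ⟨a, hab.symm⟩⟩
  -- every copy shares an edge with the union
  have hshare : ∀ p ∈ permsInto H F, ∃ x y, (img p F).Adj x y ∧ (unionG Fam).Adj x y := by
    intro p hp
    have hmem : img p F ∈ copiesF H F := mem_image.2 ⟨p, hp, rfl⟩
    by_cases hin : img p F ∈ Fam
    · obtain ⟨a, b, hab⟩ := exists_edge_of_e_pos he
      exact ⟨p a, p b, by simpa using hab, img p F, hin, by simpa using hab⟩
    · obtain ⟨B, hB, x, y, h1, h2⟩ := hmax _ hmem hin
      exact ⟨x, y, h1, B, hB, h2⟩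
  have hsub : R H F ⊆ (univ : Finset F.Dart).biUnion fun d1 =>
      (univ : Finset (unionG Fam).Dart).biUnion fun d2 =>
        Pin F H W d1.fst d1.snd d2.fst d2.snd := by
    intro g hg
    obtain ⟨p, hp, rfl⟩ := mem_image.1 hg
    obtain ⟨x, y, h1, h2⟩ := hshare p hp
    have hab : F.Adj (p.symm x) (p.symm y) := h1
    simp only [mem_biUnion, mem_univ, true_and]
    refine ⟨⟨(p.symm x, p.symm y), hab⟩, ⟨(x, y), h2⟩, ?_⟩
    simp only [Pin, mem_filter]
    have hp' : img p F ≤ H := by simpa [permsInto] using hp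
    refine ⟨res_mem_PH hp', ?_, ?_⟩
    · have hx : p.symm x ∈ supp F := mem_supp.2 ⟨_, hab⟩
      simp [res, hx]
    · have hy : p.symm y ∈ supp F := mem_supp.2 ⟨_, hab.symm⟩
      simp [res, hy]
  have hpin : ∀ (d1 : F.Dart) (d2 : (unionG Fam).Dart),
      (Pin F H W d1.fst d1.snd d2.fst d2.snd).card ≤ D ^ (W.card - 2) := by
    intro d1 d2
    exact card_pin_le hconn hD d1.adj (hadjW d1.adj).1 (hadjW d1.adj).2
  have hcount : (R H F).card ≤ (2 * e F) * ((2 * e (unionG Fam)) * D ^ (W.card - 2)) := by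
    calc (R H F).card ≤ _ := Finset.card_le_card hsub
      _ ≤ (univ : Finset F.Dart).card * ((2 * e (unionG Fam)) * D ^ (W.card - 2)) := by
        apply Finset.card_biUnion_le_card_mul
        intro d1 _
        calc _ ≤ (univ : Finset (unionG Fam).Dart).card * D ^ (W.card - 2) := by
              apply Finset.card_biUnion_le_card_mul
              intro d2 _
              exact hpin d1 d2
          _ = _ := by
            rw [Finset.card_univ, SimpleGraph.dart_card_eq_twice_card_edges, e_eq_card]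
      _ = _ := by
        rw [Finset.card_univ, SimpleGraph.dart_card_eq_twice_card_edges]
        simp only [e_eq_card]
  by_cases hRne : (R H F).Nonempty
  · have hFamne : Fam.Nonempty := by
      obtain ⟨g, hg⟩ := hRne
      obtain ⟨p, hp, _⟩ := mem_image.1 hg
      obtain ⟨x, y, _, A, hA, _⟩ := hshare p hp
      exact ⟨A, hA⟩
    have hr := card_family_le hq hstar hFamsub hED hFamne
    have heU : e (unionG Fam) = Fam.card * e F := by
      rw [e_unionG hED, Finset.sum_const_nat]
      intro A hA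
      obtain ⟨p, _, rfl⟩ := mem_copiesF.1 (hFamsub hA)
      exact e_img p F
    have hM : (N ⊤ F : ℝ) ≤ (n : ℝ) ^ W.card := by
      exact_mod_cast N_top_le F
    have hqe : 0 ≤ q ^ e F := by positivity
    have hr' : (Fam.card : ℝ) ≤ 2 * Real.exp 1 * (n : ℝ) ^ W.card * q ^ e F := by
      refine hr.trans ?_
      gcongr
    have hcount' : ((R H F).card : ℝ) ≤
        (2 * (e F : ℝ)) * ((2 * ((Fam.card : ℝ) * (e F : ℝ))) * (D : ℝ) ^ (W.card - 2)) := by
      rw [heU] at hcount
      exact_mod_cast hcount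
    calc ((R H F).card : ℝ)
        ≤ (2 * (e F : ℝ)) * ((2 * ((Fam.card : ℝ) * (e F : ℝ))) * (D : ℝ) ^ (W.card - 2)) :=
          hcount'
      _ = 4 * (e F : ℝ) ^ 2 * (Fam.card : ℝ) * (D : ℝ) ^ (W.card - 2) := by ring
      _ ≤ 4 * (e F : ℝ) ^ 2 * (2 * Real.exp 1 * (n : ℝ) ^ W.card * q ^ e F) *
            (D : ℝ) ^ (W.card - 2) := by
        gcongr
  · rw [Finset.not_nonempty_iff_eq_empty] at hRne
    rw [hRne, Finset.card_empty]
    simp only [Nat.cast_zero]
    positivity

end Vale.Agent.Lib.P064
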