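import Mathlib
import Vale.Agent.Lib.P064.ED

namespace Vale.Agent.Lib.P064

open Finset

open scoped Classical

variable {n : ℕ}

/-- number of permutations carrying `S` into `B` -/
noncomputable def PP (S B : SimpleGraph (Fin n)) : ℕ := (permsInto B S).card

lemma mem_permsInto' {H F : SimpleGraph (Fin n)} {p : Pm n} :
    p ∈ permsInto H F ↔ img p F ≤ H := by
  simp [permsInto]

lemma PP_mono (S : SimpleGraph (Fin n)) {B B' : SimpleGraph (Fin n)} (h : B ≤ B') :
    PP S B ≤ PP S B' := by
  apply Finset.card_le_card
  intro p hp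
  rw [mem_permsInto'] at hp ⊢
  exact hp.trans h

lemma PP_le_of_img_le (S : SimpleGraph (Fin n)) {W B : SimpleGraph (Fin n)} (r : Pm n)
    (h : img r W ≤ B) : PP S W ≤ PP S B := by
  refine Finset.card_le_card_of_injOn (fun p => r * p) ?_ ?_
  · intro p hp
    have hp' : img p S ≤ W := mem_permsInto'.1 (Finset.mem_coe.1 hp)
    apply Finset.mem_coe.2
    rw [mem_permsInto', img_mul]
    refine le_trans ?_ h
    intro x y hxy
    exact hp' hxy
  · intro p _ p' _ hpp
    simpa using hpp

lemma img_sup (r : Pm n) (A B : SimpleGraph (Fin n)) : img r (A ⊔ B) = img r A ⊔ img r B := by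
  ext x y
  simp [img_adj]

lemma img_bot (r : Pm n) : img r (⊥ : SimpleGraph (Fin n)) = ⊥ := by
  ext x y
  simp [img_adj]

lemma e_bot : e (⊥ : SimpleGraph (Fin n)) = 0 := by
  simp [e]

lemma e_mono {A B : SimpleGraph (Fin n)} (h : A ≤ B) : e A ≤ e B := by
  rw [e_eq_card, e_eq_card]
  apply Finset.card_le_card
  intro s hs
  rw [SimpleGraph.mem_edgeFinset] at hs ⊢
  exact SimpleGraph.edgeSet_mono h hs

/-- The subgraph of `τ` with edge set `I`. -/
def sub (τ : SimpleGraph (Fin n)) (I : Finset (Sym2 (Fin n))) : SimpleGraph (Fin n) where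
  Adj x y := τ.Adj x y ∧ s(x, y) ∈ I
  symm := ⟨by
    rintro x y ⟨h, h2⟩
    refine ⟨h.symm, ?_⟩
    rwa [Sym2.eq_swap]⟩
  loopless := ⟨by
    rintro x ⟨h, _⟩
    exact τ.loopless.1 x h⟩

lemma sub_adj (τ : SimpleGraph (Fin n)) (I : Finset (Sym2 (Fin n))) (x y : Fin n) :
    (sub τ I).Adj x y ↔ τ.Adj x y ∧ s(x, y) ∈ I := Iff.rfl

lemma e_sub {τ : SimpleGraph (Fin n)} {I : Finset (Sym2 (Fin n))} (h : I ⊆ τ.edgeFinset) :
    e (sub τ I) = I.card := by
  rw [e_eq_card]
  congr 1
  ext s
  induction s using Sym2.ind with
  | _ x y =>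
    simp only [SimpleGraph.mem_edgeFinset, SimpleGraph.mem_edgeSet, sub_adj]
    constructor
    · exact fun h' => h'.2
    · intro h'
      refine ⟨?_, h'⟩
      have := h h'
      simpa using this

lemma PP_sub_empty (τ B : SimpleGraph (Fin n)) : PP (sub τ ∅) B = n.factorial := by
  have : permsInto B (sub τ ∅) = (univ : Finset (Pm n)) := by
    ext p
    simp only [mem_permsInto', mem_univ, iff_true, img_le_iff]
    intro x y h
    simp [sub_adj] at h
  rw [PP, this, Finset.card_univ, Fintype.card_perm, Fintype.card_fin]

/-- positions of `τ` whose image under `p` already lies in `W` -/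
noncomputable def oldSet (τ : SimpleGraph (Fin n)) (p : Pm n) (W : SimpleGraph (Fin n)) :
    Finset (Sym2 (Fin n)) :=
  τ.edgeFinset.filter fun f => Sym2.map p f ∈ W.edgeSet

lemma oldSet_subset (τ : SimpleGraph (Fin n)) (p : Pm n) (W : SimpleGraph (Fin n)) :
    oldSet τ p W ⊆ τ.edgeFinset := Finset.filter_subset _ _

lemma img_sub_oldSet_le (τ : SimpleGraph (Fin n)) (p : Pm n) (W : SimpleGraph (Fin n)) :
    img p (sub τ (oldSet τ p W)) ≤ W := by
  rw [img_le_iff]
  intro x y h
  have h2 := h.2
  simp only [oldSet, mem_filter] at h2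
  simpa using h2.2

lemma oldSet_mul (τ : SimpleGraph (Fin n)) (r p : Pm n) (W : SimpleGraph (Fin n)) :
    oldSet τ (r * p) (img r W) = oldSet τ p W := by
  ext f
  simp only [oldSet, mem_filter]
  refine and_congr_right fun _ => ?_
  induction f using Sym2.ind with
  | _ x y =>
    simp [Equiv.Perm.mul_apply]

/-- The number of new edges when a copy is added to `W`. -/
lemma e_sup_img (τ : SimpleGraph (Fin n)) (p : Pm n) (W : SimpleGraph (Fin n)) :
    e (img p τ ⊔ W) = e W + (e τ - (oldSet τ p W).card) := by
  classical
  have hcard : (oldSet τ p W).card ≤ e τ := by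
    rw [e_eq_card]
    exact Finset.card_le_card (oldSet_subset τ p W)
  have himg : (img p τ).edgeFinset = τ.edgeFinset.image (Sym2.map p) := by
    ext s
    induction s using Sym2.ind with
    | _ x y =>
      simp only [SimpleGraph.mem_edgeFinset, SimpleGraph.mem_edgeSet, mem_image, img_adj]
      constructor
      · intro h
        refine ⟨s(p.symm x, p.symm y), h, ?_⟩
        simp
      · rintro ⟨f, hf, hfe⟩
        induction f using Sym2.ind with
        | _ a b =>
          simp only [Sym2.map_mk, Sym2.eq_iff] at hfe
          simp only [SimpleGraph.mem_edgeSet] at hf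
          rcases hfe with ⟨rfl, rfl⟩ | ⟨rfl, rfl⟩
          · simpa using hf
          · simpa using hf.symm
  have hsup : e (img p τ ⊔ W) = ((img p τ).edgeFinset ∪ W.edgeFinset).card := by
    rw [e, ← Set.ncard_coe_finset]
    congr 1
    ext s
    simp [SimpleGraph.edgeSet_sup]
  have hinter : (img p τ).edgeFinset ∩ W.edgeFinset = (oldSet τ p W).image (Sym2.map p) := by
    rw [himg]
    ext s
    simp only [mem_inter, mem_image, oldSet, mem_filter, SimpleGraph.mem_edgeFinset]
    constructor
    · rintro ⟨⟨f, hf, rfl⟩, hW⟩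
      exact ⟨f, ⟨hf, hW⟩, rfl⟩
    · rintro ⟨f, ⟨hf, hW⟩, rfl⟩
      exact ⟨⟨f, hf, rfl⟩, hW⟩
  have hinj : Function.Injective (Sym2.map p) := Sym2.map.injective p.injective
  have h1 := Finset.card_union_add_card_inter (img p τ).edgeFinset W.edgeFinset
  rw [← hsup, hinter, Finset.card_image_of_injective _ hinj] at h1
  have h2 : (img p τ).edgeFinset.card = e τ := by
    rw [← e_eq_card, e_img]
  rw [h2] at h1
  have h4 : e W = W.edgeFinset.card := e_eq_card _
  rw [h4]
  omega

/-! ### Sequences of copies -/

/-- union of the copies in a list -/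
noncomputable def unionL (τ : SimpleGraph (Fin n)) : List (Pm n) → SimpleGraph (Fin n)
  | [] => ⊥
  | p :: l => img p τ ⊔ unionL τ l

/-- pattern of old positions of a list -/
noncomputable def patL (τ : SimpleGraph (Fin n)) : List (Pm n) → List (Finset (Sym2 (Fin n)))
  | [] => []
  | p :: l => oldSet τ p (unionL τ l) :: patL τ l

lemma unionL_map (τ : SimpleGraph (Fin n)) (r : Pm n) (l : List (Pm n)) :
    unionL τ (l.map (fun p => r * p)) = img r (unionL τ l) := by
  induction l with
  | nil => simp [unionL, img_bot]
  | cons p l ih =>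
    simp only [List.map_cons, unionL, ih, img_sup, img_mul]

lemma patL_map (τ : SimpleGraph (Fin n)) (r : Pm n) (l : List (Pm n)) :
    patL τ (l.map (fun p => r * p)) = patL τ l := by
  induction l with
  | nil => simp [patL]
  | cons p l ih =>
    simp only [List.map_cons, patL, ih, unionL_map, oldSet_mul]

lemma e_unionL (τ : SimpleGraph (Fin n)) (l : List (Pm n)) :
    e (unionL τ l) = ((patL τ l).map fun I => e τ - I.card).sum := by
  induction l with
  | nil => simp [unionL, patL, e_bot]
  | cons p l ih =>
    simp only [unionL, patL, List.map_cons, List.sum_cons, e_sup_img, ih]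
    omega

lemma unionL_le {τ A : SimpleGraph (Fin n)} {l : List (Pm n)}
    (h : ∀ p ∈ l, img p τ ≤ A) : unionL τ l ≤ A := by
  induction l with
  | nil => simp [unionL]
  | cons p l ih =>
    simp only [unionL]
    refine sup_le (h p (by simp)) (ih fun r hr => h r (by simp [hr]))

lemma patL_mem_subset (τ : SimpleGraph (Fin n)) (l : List (Pm n)) :
    ∀ I ∈ patL τ l, I ⊆ τ.edgeFinset := by
  induction l with
  | nil => simp [patL]
  | cons p l ih =>
    intro I hI
    simp only [patL, List.mem_cons] at hI
    rcases hI with rfl | hI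
    · exact oldSet_subset τ p _
    · exact ih I hI

lemma length_patL (τ : SimpleGraph (Fin n)) (l : List (Pm n)) : (patL τ l).length = l.length := by
  induction l with
  | nil => rfl
  | cons p l ih => simp [patL, ih]

/-- all lists of length `t` with entries from `S` -/
def seqs {α : Type*} [DecidableEq α] (S : Finset α) : ℕ → Finset (List α)
  | 0 => {[]}
  | t + 1 => (S ×ˢ seqs S t).image fun x => x.1 :: x.2

lemma mem_seqs {α : Type*} [DecidableEq α] {S : Finset α} {t : ℕ} {l : List α} :
    l ∈ seqs S t ↔ l.length = t ∧ ∀ a ∈ l, a ∈ S := by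
  induction t generalizing l with
  | zero =>
    simp only [seqs, mem_singleton]
    constructor
    · rintro rfl; simp
    · rintro ⟨h, _⟩; exact List.eq_nil_of_length_eq_zero h
  | succ t ih =>
    simp only [seqs, mem_image, mem_product, Prod.exists]
    constructor
    · rintro ⟨a, l', ⟨ha, hl'⟩, rfl⟩
      obtain ⟨h1, h2⟩ := ih.1 hl'
      refine ⟨by simp [h1], ?_⟩
      intro x hx
      rw [List.mem_cons] at hx
      rcases hx with rfl | hx
      · exact ha
      · exact h2 x hx
    · rintro ⟨h1, h2⟩
      cases l with
      | nil => simp at h1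
      | cons a l' =>
        refine ⟨a, l', ⟨h2 a (by simp), ih.2 ⟨by simpa using h1, ?_⟩⟩, rfl⟩
        intro x hx
        exact h2 x (by simp [hx])

lemma sum_seqs_prod {α : Type*} [DecidableEq α] (S : Finset α) (g : α → ℝ) (t : ℕ) :
    ∑ L ∈ seqs S t, (L.map g).prod = (∑ a ∈ S, g a) ^ t := by
  induction t with
  | zero => simp [seqs]
  | succ t ih =>
    simp only [seqs]
    rw [Finset.sum_image, Finset.sum_product, pow_succ', ← ih, Finset.sum_mul_sum]
    · simp
    · rintro ⟨a, l⟩ _ ⟨b, l'⟩ _ h
      simp only [List.cons.injEq] at h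
      simp [h.1, h.2]

lemma card_seqs {α : Type*} [DecidableEq α] (S : Finset α) (t : ℕ) :
    (seqs S t).card = S.card ^ t := by
  induction t with
  | zero => simp [seqs]
  | succ t ih =>
    simp only [seqs]
    rw [Finset.card_image_of_injective, Finset.card_product, ih, pow_succ']
    rintro ⟨a, l⟩ ⟨b, l'⟩ h
    simp only [List.cons.injEq] at h
    simp [h.1, h.2]

/-- lists of permutations with pattern `L` whose union embeds in `B` -/
noncomputable def cls (τ : SimpleGraph (Fin n)) (L : List (Finset (Sym2 (Fin n))))
    (B : SimpleGraph (Fin n)) : Finset (List (Pm n)) :=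
  (seqs (univ : Finset (Pm n)) L.length).filter fun l =>
    patL τ l = L ∧ ∃ r : Pm n, img r (unionL τ l) ≤ B

lemma mem_cls {τ B : SimpleGraph (Fin n)} {L : List (Finset (Sym2 (Fin n)))} {l : List (Pm n)} :
    l ∈ cls τ L B ↔ l.length = L.length ∧ patL τ l = L ∧ ∃ r : Pm n, img r (unionL τ l) ≤ B := by
  simp [cls, mem_seqs]

lemma card_cls_le (τ B : SimpleGraph (Fin n)) (L : List (Finset (Sym2 (Fin n)))) :
    (cls τ L B).card ≤ (L.map fun I => PP (sub τ I) B).prod := by
  classical
  induction L with
  | nil =>
    simp only [List.map_nil, List.prod_nil]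
    apply Finset.card_le_one.2
    intro a ha b hb
    have h1 := List.eq_nil_of_length_eq_zero (by simpa using (mem_cls.1 ha).1)
    have h2 := List.eq_nil_of_length_eq_zero (by simpa using (mem_cls.1 hb).1)
    rw [h1, h2]
  | cons I L' ih =>
    simp only [List.map_cons, List.prod_cons]
    have hle := Finset.card_le_mul_card_image (f := List.tail) (cls τ (I :: L') B)
      (PP (sub τ I) B) ?_
    · refine hle.trans (Nat.mul_le_mul_left _ (le_trans (Finset.card_le_card ?_) ih))
      intro l' hl'
      obtain ⟨l, hl, rfl⟩ := mem_image.1 hl'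
      obtain ⟨hlen, hpat, r, hr⟩ := mem_cls.1 hl
      cases l with
      | nil => simp at hlen
      | cons p l0 =>
        simp only [patL, List.cons.injEq] at hpat
        simp only [List.tail_cons]
        refine mem_cls.2 ⟨by simpa using hlen, hpat.2, r, ?_⟩
        refine le_trans ?_ hr
        simp only [unionL, img_sup]
        exact le_sup_right
    · intro l' hl'
      obtain ⟨l, hl, rfl⟩ := mem_image.1 hl'
      obtain ⟨hlen, hpat, r, hr⟩ := mem_cls.1 hl
      cases l with
      | nil => simp at hlen
      | cons p l0 =>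
        simp only [List.tail_cons]
        have hemb : ∃ r : Pm n, img r (unionL τ l0) ≤ B := by
          refine ⟨r, le_trans ?_ hr⟩
          simp only [unionL, img_sup]
          exact le_sup_right
        obtain ⟨r0, hr0⟩ := hemb
        calc _ ≤ (permsInto (unionL τ l0) (sub τ I)).card := by
              refine Finset.card_le_card_of_injOn (fun l => l.headD 1) ?_ ?_
              · intro a ha
                have ha' := Finset.mem_filter.1 (Finset.mem_coe.1 ha)
                obtain ⟨h1a, htail⟩ := ha'
                obtain ⟨hlen2, hpat2, _⟩ := mem_cls.1 h1a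
                cases a with
                | nil => simp at hlen2
                | cons p2 a0 =>
                  simp only [List.tail_cons] at htail
                  subst htail
                  simp only [patL, List.cons.injEq] at hpat2
                  simp only [List.headD_cons]
                  apply Finset.mem_coe.2
                  rw [mem_permsInto', ← hpat2.1]
                  exact img_sub_oldSet_le τ p2 _
              · intro a ha b hb hab
                obtain ⟨h1a, htail⟩ := Finset.mem_filter.1 (Finset.mem_coe.1 ha)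
                obtain ⟨h1b, htail3⟩ := Finset.mem_filter.1 (Finset.mem_coe.1 hb)
                obtain ⟨hlen2, _⟩ := mem_cls.1 h1a
                obtain ⟨hlen3, _⟩ := mem_cls.1 h1b
                cases a with
                | nil => simp at hlen2
                | cons p2 a0 =>
                  cases b with
                  | nil => simp at hlen3
                  | cons p3 b0 =>
                    simp only [List.headD_cons] at hab
                    simp only [List.tail_cons] at htail htail3
                    rw [hab, htail, htail3]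
          _ ≤ PP (sub τ I) B := PP_le_of_img_le _ r0 hr0

/-- lists of permutations with pattern `L` and union exactly `B` -/
noncomputable def cnt (τ : SimpleGraph (Fin n)) (L : List (Finset (Sym2 (Fin n))))
    (B : SimpleGraph (Fin n)) : Finset (List (Pm n)) :=
  (seqs (univ : Finset (Pm n)) L.length).filter fun l => patL τ l = L ∧ unionL τ l = B

lemma N_mul_card_cnt_le (τ B : SimpleGraph (Fin n)) (L : List (Finset (Sym2 (Fin n)))) :
    N ⊤ B * (cnt τ L B).card ≤ (cls τ L B).card := by
  classical
  have hch : ∀ A ∈ copiesF ⊤ B, ∃ r : Pm n, img r B = A := by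
    intro A hA
    obtain ⟨r, _, rfl⟩ := mem_copiesF.1 hA
    exact ⟨r, rfl⟩
  choose! f hf using hch
  rw [N_eq_card, ← Finset.card_product]
  refine Finset.card_le_card_of_injOn (fun x => x.2.map fun p => f x.1 * p) ?_ ?_
  · rintro ⟨A, l⟩ hx
    simp only [coe_product, Set.mem_prod, mem_coe] at hx
    obtain ⟨hA, hl⟩ := hx
    simp only [cnt, mem_filter, mem_seqs] at hl
    apply Finset.mem_coe.2
    refine mem_cls.2 ⟨by simpa using hl.1.1, ?_, ?_⟩
    · rw [patL_map]
      exact hl.2.1
    · refine ⟨(f A)⁻¹, ?_⟩
      rw [unionL_map, hl.2.2, ← img_mul, inv_mul_cancel, img_one]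
  · rintro ⟨A, l⟩ hx ⟨A', l'⟩ hx' h
    simp only [coe_product, Set.mem_prod, mem_coe] at hx hx'
    simp only [cnt, mem_filter, mem_seqs] at hx hx'
    obtain ⟨hA, hl⟩ := hx
    obtain ⟨hA', hl'⟩ := hx'
    simp only at h
    have h1 := congrArg (unionL τ) h
    rw [unionL_map, unionL_map, hl.2.2, hl'.2.2, hf A hA, hf A' hA'] at h1
    subst h1
    have h2 : l = l' := by
      have hinj : Function.Injective (fun p : Pm n => f A * p) := fun a b hab => by simpa using hab
      exact List.map_injective_iff.2 hinj h
    rw [h2]

end Vale.Agent.Lib.P064
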