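import Mathlib
import Vale.Agent.Lib.P064.Tuple

namespace Vale.Agent.Lib.P064

open Finset

open scoped Classical

variable {n : ℕ}

lemma pow_sum_map {α : Type*} (a : ℝ) (L : List α) (f : α → ℕ) :
    a ^ (L.map f).sum = (L.map fun x => a ^ f x).prod := by
  induction L with
  | nil => simp
  | cons x L ih => simp [pow_add, ih]

lemma list_prod_le {α : Type*} (L : List α) (f g : α → ℝ) (hf : ∀ x ∈ L, 0 ≤ f x)
    (hfg : ∀ x ∈ L, f x ≤ g x) : (L.map f).prod ≤ (L.map g).prod := by
  induction L with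
  | nil => simp
  | cons x L ih =>
    simp only [List.map_cons, List.prod_cons]
    have h1 := ih (fun y hy => hf y (by simp [hy])) (fun y hy => hfg y (by simp [hy]))
    have h2 : 0 ≤ (L.map f).prod := List.prod_nonneg (by
      intro a ha
      obtain ⟨y, hy, rfl⟩ := List.mem_map.1 ha
      exact hf y (by simp [hy]))
    have h3 := hfg x (by simp)
    have h4 := hf x (by simp)
    have h5 : 0 ≤ g x := h4.trans h3
    exact mul_le_mul h3 h1 h2 h5

lemma mem_cnt {τ B : SimpleGraph (Fin n)} {L : List (Finset (Sym2 (Fin n)))} {l : List (Pm n)} :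
    l ∈ cnt τ L B ↔ l.length = L.length ∧ patL τ l = L ∧ unionL τ l = B := by
  simp [cnt, mem_seqs]

/-- The count of lists with pattern `L` and union `B`, bounded with an exponential weight. -/
lemma cnt_bound {τ B : SimpleGraph (Fin n)} {L : List (Finset (Sym2 (Fin n)))} {q E : ℝ}
    {y : ℕ → ℝ} {h' : ℕ} (hq : 0 < q) (hy0 : ∀ o, 0 ≤ y o) (hE : 1 ≤ E)
    (hB : (1 / 2 : ℝ) ≤ (N ⊤ B : ℝ) * q ^ e B)
    (hy : ∀ I ⊆ τ.edgeFinset, (PP (sub τ I) B : ℝ) ≤ (n.factorial : ℝ) * q ^ I.card * y I.card)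
    (hL : ∀ I ∈ L, I ⊆ τ.edgeFinset) (hh : h' ≤ e B) :
    ((cnt τ L B).card : ℝ) ≤ 2 / E ^ h' *
      (L.map fun I => (n.factorial : ℝ) * q ^ e τ * y I.card * E ^ (e τ - I.card)).prod := by
  have hE0 : 0 < E := by linarith
  have hfac : (0 : ℝ) < n.factorial := by exact_mod_cast Nat.factorial_pos n
  have hprodnn : 0 ≤ (L.map fun I => (n.factorial : ℝ) * q ^ e τ * y I.card *
      E ^ (e τ - I.card)).prod := by
    apply List.prod_nonneg
    intro a ha
    obtain ⟨I, _, rfl⟩ := List.mem_map.1 ha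
    have := hy0 I.card
    positivity
  by_cases hne : (cnt τ L B).Nonempty
  · obtain ⟨l, hl⟩ := hne
    obtain ⟨_, hpat, hun⟩ := mem_cnt.1 hl
    have heB : e B = (L.map fun I => e τ - I.card).sum := by
      rw [← hun, e_unionL, hpat]
    have h1 := N_mul_card_cnt_le τ B L
    have h2 := card_cls_le τ B L
    have h3 : (N ⊤ B : ℝ) * ((cnt τ L B).card : ℝ) ≤
        ((L.map fun I => PP (sub τ I) B).prod : ℕ) := by
      exact_mod_cast h1.trans h2
    have h4 : (((L.map fun I => PP (sub τ I) B).prod : ℕ) : ℝ) ≤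
        (L.map fun I => (n.factorial : ℝ) * q ^ I.card * y I.card).prod := by
      rw [Nat.cast_list_prod, List.map_map]
      apply list_prod_le
      · intro I _
        simp
      · intro I hI
        simpa using hy I (hL I hI)
    set c : ℝ := ((cnt τ L B).card : ℝ) with hc
    have hc0 : 0 ≤ c := by positivity
    have hqe : 0 < q ^ e B := by positivity
    have h5 : c ≤ 2 * q ^ e B * (L.map fun I => (n.factorial : ℝ) * q ^ I.card * y I.card).prod := by
      have h6 : c ≤ 2 * ((N ⊤ B : ℝ) * q ^ e B) * c := by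
        have : (1 : ℝ) ≤ 2 * ((N ⊤ B : ℝ) * q ^ e B) := by linarith
        nlinarith
      calc c ≤ 2 * ((N ⊤ B : ℝ) * q ^ e B) * c := h6
        _ = 2 * q ^ e B * ((N ⊤ B : ℝ) * c) := by ring
        _ ≤ 2 * q ^ e B * (L.map fun I => (n.factorial : ℝ) * q ^ I.card * y I.card).prod := by
          apply mul_le_mul_of_nonneg_left (h3.trans h4)
          positivity
    have hq' : q ^ e B = (L.map fun I => q ^ (e τ - I.card)).prod := by
      rw [heB, pow_sum_map]
    have hE' : E ^ e B = (L.map fun I => E ^ (e τ - I.card)).prod := by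
      rw [heB, pow_sum_map]
    have hcomb : q ^ e B * (L.map fun I => (n.factorial : ℝ) * q ^ I.card * y I.card).prod *
        E ^ e B = (L.map fun I => (n.factorial : ℝ) * q ^ e τ * y I.card *
          E ^ (e τ - I.card)).prod := by
      rw [hq', hE', ← List.prod_map_mul, ← List.prod_map_mul]
      congr 1
      apply List.map_congr_left
      intro I hI
      have hIle : I.card ≤ e τ := by
        rw [e_eq_card]
        exact Finset.card_le_card (hL I hI)
      have : q ^ e τ = q ^ (e τ - I.card) * q ^ I.card := by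
        rw [← pow_add]
        congr 1
        omega
      rw [this]
      ring
    have hpw : E ^ h' ≤ E ^ e B := pow_le_pow_right₀ hE hh
    have hEh : 0 < E ^ h' := by positivity
    have hmain : 0 ≤ q ^ e B * (L.map fun I => (n.factorial : ℝ) * q ^ I.card * y I.card).prod := by
      apply mul_nonneg hqe.le
      apply List.prod_nonneg
      intro a ha
      obtain ⟨I, _, rfl⟩ := List.mem_map.1 ha
      have := hy0 I.card
      positivity
    calc c ≤ 2 * (q ^ e B * (L.map fun I => (n.factorial : ℝ) * q ^ I.card * y I.card).prod) := by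
          calc c ≤ _ := h5
            _ = _ := by ring
      _ ≤ 2 * (q ^ e B * (L.map fun I => (n.factorial : ℝ) * q ^ I.card * y I.card).prod) *
            (E ^ e B / E ^ h') := by
          have : (1 : ℝ) ≤ E ^ e B / E ^ h' := by
            rw [le_div_iff₀ hEh]
            linarith
          nlinarith
      _ = 2 / E ^ h' * (q ^ e B * (L.map fun I => (n.factorial : ℝ) * q ^ I.card * y I.card).prod *
            E ^ e B) := by
          field_simp
      _ = _ := by rw [hcomb]
  · rw [Finset.not_nonempty_iff_eq_empty] at hne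
    rw [hne]
    simp only [card_empty, Nat.cast_zero]
    positivity

/-- graphs below `A` -/
noncomputable def hosts (A : SimpleGraph (Fin n)) : Finset (SimpleGraph (Fin n)) :=
  univ.filter fun B => B ≤ A

lemma mem_hosts {A B : SimpleGraph (Fin n)} : B ∈ hosts A ↔ B ≤ A := by
  simp [hosts]

lemma card_hosts_le (A : SimpleGraph (Fin n)) : (hosts A).card ≤ 2 ^ e A := by
  rw [e_eq_card, ← Finset.card_powerset]
  refine Finset.card_le_card_of_injOn (fun B => B.edgeFinset) ?_ ?_
  · intro B hB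
    have hB' : B ≤ A := mem_hosts.1 (Finset.mem_coe.1 hB)
    apply Finset.mem_coe.2
    rw [mem_powerset]
    intro s hs
    rw [SimpleGraph.mem_edgeFinset] at hs ⊢
    exact SimpleGraph.edgeSet_mono hB' hs
  · intro B _ B' _ h
    exact SimpleGraph.edgeFinset_inj.1 h

/-- The weighted sum over all position sets. -/
noncomputable def DD (τ : SimpleGraph (Fin n)) (q E : ℝ) (y : ℕ → ℝ) : ℝ :=
  ∑ I ∈ τ.edgeFinset.powerset, (n.factorial : ℝ) * q ^ e τ * y I.card * E ^ (e τ - I.card)

lemma DD_nonneg (τ : SimpleGraph (Fin n)) {q E : ℝ} {y : ℕ → ℝ} (hq : 0 ≤ q) (hE : 0 ≤ E)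
    (hy0 : ∀ o, 0 ≤ y o) : 0 ≤ DD τ q E y := by
  apply Finset.sum_nonneg
  intro I _
  have := hy0 I.card
  positivity

/-- Families of lists of copies with union size in a window are small. -/
lemma card_family_le' {τ A H : SimpleGraph (Fin n)} {q E : ℝ} {y : ℕ → ℝ} {h' b t : ℕ}
    (hq : 0 < q) (hy0 : ∀ o, 0 ≤ y o) (hE : 1 ≤ E) (hAH : A ≤ H)
    (hstar : ∀ F ≤ H, (1 / 2 : ℝ) ≤ (N ⊤ F : ℝ) * q ^ e F)
    (hy : ∀ I ⊆ τ.edgeFinset, ∀ B ≤ A, e B < b →
      (PP (sub τ I) B : ℝ) ≤ (n.factorial : ℝ) * q ^ I.card * y I.card)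
    (Fam : Finset (List (Pm n))) (hFam : Fam ⊆ seqs (permsInto A τ) t)
    (hwin : ∀ l ∈ Fam, h' ≤ e (unionL τ l) ∧ e (unionL τ l) < b) :
    (Fam.card : ℝ) ≤ 2 ^ e A * (2 / E ^ h' * DD τ q E y ^ t) := by
  classical
  have hE0 : 0 < E := by linarith
  set Hs := (hosts A).filter fun B => h' ≤ e B ∧ e B < b with hHs
  set PS := τ.edgeFinset.powerset with hPS
  have hsub : Fam ⊆ Hs.biUnion fun B => (seqs PS t).biUnion fun L => cnt τ L B := by
    intro l hl
    have hl' := mem_seqs.1 (hFam hl)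
    have hul : unionL τ l ≤ A := unionL_le fun p hp => mem_permsInto'.1 (hl'.2 p hp)
    simp only [mem_biUnion]
    refine ⟨unionL τ l, ?_, patL τ l, ?_, ?_⟩
    · simp only [hHs, mem_filter, mem_hosts]
      exact ⟨hul, hwin l hl⟩
    · rw [mem_seqs]
      refine ⟨by rw [length_patL, hl'.1], ?_⟩
      intro I hI
      rw [hPS, mem_powerset]
      exact patL_mem_subset τ l I hI
    · exact mem_cnt.2 ⟨by rw [length_patL], rfl, rfl⟩
  have hbound : ∀ B ∈ Hs, ∀ L ∈ seqs PS t, ((cnt τ L B).card : ℝ) ≤ 2 / E ^ h' *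
      (L.map fun I => (n.factorial : ℝ) * q ^ e τ * y I.card * E ^ (e τ - I.card)).prod := by
    intro B hB L hL
    simp only [hHs, mem_filter, mem_hosts] at hB
    refine cnt_bound hq hy0 hE (hstar B (hB.1.trans hAH)) (fun I hI => hy I hI B hB.1 hB.2.2) ?_
      hB.2.1
    intro I hI
    have := (mem_seqs.1 hL).2 I hI
    rwa [hPS, mem_powerset] at this
  have h1 : (Fam.card : ℝ) ≤ ∑ B ∈ Hs, ∑ L ∈ seqs PS t, ((cnt τ L B).card : ℝ) := by
    have : Fam.card ≤ ∑ B ∈ Hs, ∑ L ∈ seqs PS t, (cnt τ L B).card := by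
      refine (Finset.card_le_card hsub).trans (Finset.card_biUnion_le.trans ?_)
      apply Finset.sum_le_sum
      intro B _
      exact Finset.card_biUnion_le
    exact_mod_cast this
  have hDD : ∑ L ∈ seqs PS t, (L.map fun I => (n.factorial : ℝ) * q ^ e τ * y I.card *
      E ^ (e τ - I.card)).prod = DD τ q E y ^ t := by
    rw [sum_seqs_prod]
    rfl
  have h2 : ∀ B ∈ Hs, ∑ L ∈ seqs PS t, ((cnt τ L B).card : ℝ) ≤ 2 / E ^ h' * DD τ q E y ^ t := by
    intro B hB
    rw [← hDD, Finset.mul_sum]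
    exact Finset.sum_le_sum fun L hL => hbound B hB L hL
  have hDnn : 0 ≤ DD τ q E y := DD_nonneg τ hq.le hE0.le hy0
  have h3 : (Hs.card : ℝ) ≤ 2 ^ e A := by
    have : Hs.card ≤ 2 ^ e A := (Finset.card_filter_le _ _).trans (card_hosts_le A)
    exact_mod_cast this
  calc (Fam.card : ℝ) ≤ ∑ B ∈ Hs, ∑ L ∈ seqs PS t, ((cnt τ L B).card : ℝ) := h1
    _ ≤ ∑ _B ∈ Hs, (2 / E ^ h' * DD τ q E y ^ t) := Finset.sum_le_sum h2
    _ = (Hs.card : ℝ) * (2 / E ^ h' * DD τ q E y ^ t) := by
      rw [Finset.sum_const, nsmul_eq_mul]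
    _ ≤ _ := by
      gcongr

/-- sequences whose union has not yet reached size `h` -/
noncomputable def NS (τ : SimpleGraph (Fin n)) (S : Finset (Pm n)) (h t : ℕ) :
    Finset (List (Pm n)) :=
  (seqs S t).filter fun l => e (unionL τ l) < h

/-- sequences of length `t+1` whose union reaches size `h` at the last step -/
noncomputable def ST (τ : SimpleGraph (Fin n)) (S : Finset (Pm n)) (h t : ℕ) :
    Finset (List (Pm n)) :=
  (seqs S (t + 1)).filter fun l => h ≤ e (unionL τ l) ∧ e (unionL τ l.tail) < h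

lemma e_unionL_tail_le (τ : SimpleGraph (Fin n)) (l : List (Pm n)) :
    e (unionL τ l.tail) ≤ e (unionL τ l) := by
  cases l with
  | nil => simp
  | cons p l =>
    simp only [List.tail_cons, unionL]
    exact e_mono le_sup_right

lemma NS_rec (τ : SimpleGraph (Fin n)) (S : Finset (Pm n)) (h t : ℕ) :
    (NS τ S h t).card * S.card = (NS τ S h (t + 1)).card + (ST τ S h t).card := by
  classical
  have hinj : Set.InjOn (fun x : Pm n × List (Pm n) => x.1 :: x.2)
      ((S ×ˢ NS τ S h t : Finset _) : Set _) := by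
    rintro ⟨a, l⟩ _ ⟨b, l'⟩ _ hh
    simp only [List.cons.injEq] at hh
    simp [hh.1, hh.2]
  have himg : (S ×ˢ NS τ S h t).image (fun x => x.1 :: x.2) = NS τ S h (t + 1) ∪ ST τ S h t := by
    ext l
    simp only [mem_image, mem_product, Prod.exists, mem_union, NS, ST, mem_filter, mem_seqs]
    constructor
    · rintro ⟨a, l', ⟨ha, ⟨hl1, hl2⟩, hl3⟩, rfl⟩
      have hmem : (a :: l').length = t + 1 ∧ ∀ x ∈ a :: l', x ∈ S := by
        refine ⟨by simp [hl1], ?_⟩
        intro x hx
        rw [List.mem_cons] at hx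
        rcases hx with rfl | hx
        · exact ha
        · exact hl2 x hx
      by_cases hc : e (unionL τ (a :: l')) < h
      · exact Or.inl ⟨hmem, hc⟩
      · exact Or.inr ⟨hmem, by omega, by simpa using hl3⟩
    · rintro (⟨⟨hl1, hl2⟩, hl3⟩ | ⟨⟨hl1, hl2⟩, _, hl3⟩)
      · cases l with
        | nil => simp at hl1
        | cons a l' =>
          refine ⟨a, l', ⟨hl2 a (by simp), ⟨by simpa using hl1, ?_⟩, ?_⟩, rfl⟩
          · intro x hx
            exact hl2 x (by simp [hx])
          · have := e_unionL_tail_le τ (a :: l')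
            simp only [List.tail_cons] at this
            omega
      · cases l with
        | nil => simp at hl1
        | cons a l' =>
          refine ⟨a, l', ⟨hl2 a (by simp), ⟨by simpa using hl1, ?_⟩, by simpa using hl3⟩, rfl⟩
          intro x hx
          exact hl2 x (by simp [hx])
  have hdisj : Disjoint (NS τ S h (t + 1)) (ST τ S h t) := by
    rw [Finset.disjoint_left]
    intro l h1 h2
    simp only [NS, ST, mem_filter] at h1 h2
    omega
  rw [← Finset.card_union_of_disjoint hdisj, ← himg, Finset.card_image_of_injOn hinj,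
    Finset.card_product, mul_comm]

lemma pow_eq_sum (τ : SimpleGraph (Fin n)) (S : Finset (Pm n)) {h : ℕ} (hh : 1 ≤ h) (T : ℕ) :
    (S.card : ℝ) ^ T = ((NS τ S h T).card : ℝ) +
      ∑ t ∈ Finset.range T, ((ST τ S h t).card : ℝ) * (S.card : ℝ) ^ (T - 1 - t) := by
  induction T with
  | zero =>
    have : NS τ S h 0 = {[]} := by
      ext l
      simp only [NS, seqs, mem_filter, mem_singleton]
      constructor
      · exact fun h => h.1
      · rintro rfl
        refine ⟨rfl, ?_⟩
        simp only [unionL, e_bot]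
        omega
    simp [this]
  | succ T ih =>
    have h1 := NS_rec τ S h T
    have h1' : ((NS τ S h T).card : ℝ) * (S.card : ℝ) =
        ((NS τ S h (T + 1)).card : ℝ) + ((ST τ S h T).card : ℝ) := by
      exact_mod_cast h1
    rw [pow_succ, ih, add_mul, h1', Finset.sum_range_succ, Finset.sum_mul]
    have h2 : ∀ t ∈ Finset.range T, ((ST τ S h t).card : ℝ) * (S.card : ℝ) ^ (T - 1 - t) *
        (S.card : ℝ) = ((ST τ S h t).card : ℝ) * (S.card : ℝ) ^ (T + 1 - 1 - t) := by
      intro t ht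
      have ht' : t < T := Finset.mem_range.1 ht
      have : T + 1 - 1 - t = (T - 1 - t) + 1 := by omega
      rw [this, pow_succ]
      ring
    rw [Finset.sum_congr rfl h2]
    have h3 : T + 1 - 1 - T = 0 := by omega
    rw [h3, pow_zero, mul_one]
    ring

lemma real_contra {P D eps K : ℝ} (hP : 0 ≤ P) (hD : 0 ≤ D) (heps : 0 < eps) (hK : 0 < K)
    (hT : ∀ T : ℕ, P ^ T ≤ K * D ^ T +
      ∑ t ∈ Finset.range T, eps * D ^ (t + 1) * P ^ (T - 1 - t)) :
    P * (1 - eps) ≤ D := by
  by_contra hcon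
  push Not at hcon
  have hPpos : 0 < P := by
    rcases hP.eq_or_lt with h0 | h0
    · rw [← h0, zero_mul] at hcon
      linarith
    · exact h0
  obtain ⟨rho, hrho⟩ : ∃ rho : ℝ, rho = D / P := ⟨_, rfl⟩
  have hrho0 : 0 ≤ rho := by rw [hrho]; positivity
  have hDrho : D = rho * P := by
    rw [hrho]
    field_simp
  have hrho1 : rho < 1 - eps := by
    rw [hrho, div_lt_iff₀ hPpos]
    linarith
  have hrho2 : rho < 1 := by linarith
  have hmain : ∀ T : ℕ, (1 : ℝ) ≤ K * rho ^ T + eps * ∑ t ∈ Finset.range T, rho ^ (t + 1) := by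
    intro T
    have hPT : 0 < P ^ T := by positivity
    have h2 : 1 * P ^ T ≤ (K * rho ^ T + eps * ∑ t ∈ Finset.range T, rho ^ (t + 1)) * P ^ T := by
      rw [one_mul]
      calc P ^ T ≤ _ := hT T
        _ = _ := by
          rw [add_mul, Finset.mul_sum, Finset.sum_mul]
          congr 1
          · rw [hDrho, mul_pow]
            ring
          · apply Finset.sum_congr rfl
            intro t ht
            have ht' : t < T := Finset.mem_range.1 ht
            have hsplit : P ^ T = P ^ (t + 1) * P ^ (T - 1 - t) := by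
              rw [← pow_add]
              congr 1
              omega
            rw [hsplit, hDrho, mul_pow]
            ring
    exact le_of_mul_le_mul_right h2 hPT
  have hgeom : ∀ T : ℕ, eps * ∑ t ∈ Finset.range T, rho ^ (t + 1) ≤ rho := by
    intro T
    have h1 : (∑ t ∈ Finset.range T, rho ^ t) * (1 - rho) = 1 - rho ^ T :=
      geom_sum_mul_neg rho T
    have h2 : ∑ t ∈ Finset.range T, rho ^ (t + 1) = rho * ∑ t ∈ Finset.range T, rho ^ t := by
      rw [Finset.mul_sum]
      apply Finset.sum_congr rfl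
      intro t _
      rw [pow_succ']
    have h3 : 0 ≤ ∑ t ∈ Finset.range T, rho ^ t :=
      Finset.sum_nonneg fun t _ => pow_nonneg hrho0 t
    have h4 : 0 ≤ rho ^ T := pow_nonneg hrho0 T
    rw [h2]
    have h5 : eps ≤ 1 - rho := by linarith
    have h6 : 0 ≤ rho * ∑ t ∈ Finset.range T, rho ^ t := mul_nonneg hrho0 h3
    calc eps * (rho * ∑ t ∈ Finset.range T, rho ^ t)
        ≤ (1 - rho) * (rho * ∑ t ∈ Finset.range T, rho ^ t) :=
          mul_le_mul_of_nonneg_right h5 h6
      _ = rho * ((∑ t ∈ Finset.range T, rho ^ t) * (1 - rho)) := by ring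
      _ = rho * (1 - rho ^ T) := by rw [h1]
      _ ≤ rho * 1 := mul_le_mul_of_nonneg_left (by linarith) hrho0
      _ = rho := mul_one _
  have hgap : 0 < (1 - rho) / K := div_pos (by linarith) hK
  obtain ⟨T, hT'⟩ := exists_pow_lt_of_lt_one hgap hrho2
  have h1 := hmain T
  have h2 := hgeom T
  have h3 : K * rho ^ T < 1 - rho := by
    rw [lt_div_iff₀ hK] at hT'
    linarith
  linarith

/-- The recursion: the number of permutations carrying `τ` into `A` is controlled by the
counts for the pieces of `τ` in hosts with about half the edges. -/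
theorem main_rec {τ A H : SimpleGraph (Fin n)} {q E : ℝ} {y : ℕ → ℝ} {h : ℕ}
    (hq : 0 < q) (hy0 : ∀ o, 0 ≤ y o) (hE : 1 ≤ E) (hAH : A ≤ H) (hh : 1 ≤ h)
    (hstar : ∀ F ≤ H, (1 / 2 : ℝ) ≤ (N ⊤ F : ℝ) * q ^ e F)
    (hy : ∀ I ⊆ τ.edgeFinset, ∀ B ≤ A, e B < h + e τ →
      (PP (sub τ I) B : ℝ) ≤ (n.factorial : ℝ) * q ^ I.card * y I.card) :
    (PP τ A : ℝ) * (1 - 2 ^ e A * (2 / E ^ h)) ≤ DD τ q E y := by
  classical
  have hE0 : 0 < E := by linarith
  have hD0 : 0 ≤ DD τ q E y := DD_nonneg τ hq.le hE0.le hy0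
  have hNS : ∀ T, ((NS τ (permsInto A τ) h T).card : ℝ) ≤ 2 ^ e A * (2 / E ^ 0 * DD τ q E y ^ T) := by
    intro T
    refine card_family_le' (b := h + e τ) hq hy0 hE hAH hstar hy _ (Finset.filter_subset _ _) ?_
    intro l hl
    simp only [NS, mem_filter] at hl
    refine ⟨Nat.zero_le _, by omega⟩
  have hST : ∀ t, ((ST τ (permsInto A τ) h t).card : ℝ) ≤
      2 ^ e A * (2 / E ^ h * DD τ q E y ^ (t + 1)) := by
    intro t
    refine card_family_le' (b := h + e τ) hq hy0 hE hAH hstar hy _ (Finset.filter_subset _ _) ?_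
    intro l hl
    simp only [ST, mem_filter] at hl
    refine ⟨hl.2.1, ?_⟩
    have hl1 := (mem_seqs.1 hl.1).1
    cases l with
    | nil => simp at hl1
    | cons p l' =>
      have h2 := hl.2.2
      simp only [List.tail_cons] at h2
      simp only [unionL]
      rw [e_sup_img]
      omega
  refine real_contra (K := 2 ^ e A * 2) (by positivity) hD0 (by positivity) (by positivity) ?_
  intro T
  have h1 := pow_eq_sum τ (permsInto A τ) hh T
  have hcast : ((permsInto A τ).card : ℝ) = (PP τ A : ℝ) := rfl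
  rw [hcast] at h1
  rw [h1]
  apply add_le_add
  · calc _ ≤ 2 ^ e A * (2 / E ^ 0 * DD τ q E y ^ T) := hNS T
      _ = _ := by simp only [pow_zero, div_one]; ring
  · apply Finset.sum_le_sum
    intro t _
    have h2 := hST t
    have h3 : 0 ≤ (PP τ A : ℝ) ^ (T - 1 - t) := by positivity
    calc ((ST τ (permsInto A τ) h t).card : ℝ) * (PP τ A : ℝ) ^ (T - 1 - t)
        ≤ (2 ^ e A * (2 / E ^ h * DD τ q E y ^ (t + 1))) * (PP τ A : ℝ) ^ (T - 1 - t) :=
          mul_le_mul_of_nonneg_right h2 h3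
      _ = _ := by ring

end Vale.Agent.Lib.P064
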