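import Mathlib
import Vale.Agent.Lib.P064.Rec

namespace Vale.Agent.Lib.P064

open Finset

open scoped Classical

variable {n : ℕ}

lemma copiesF_top_img (p : Pm n) (S : SimpleGraph (Fin n)) :
    copiesF ⊤ (img p S) = copiesF ⊤ S := by
  ext A
  simp only [mem_copiesF, le_top, true_and]
  constructor
  · rintro ⟨r, rfl⟩
    exact ⟨r * p, by rw [img_mul]⟩
  · rintro ⟨r, rfl⟩
    exact ⟨r * p⁻¹, by rw [← img_mul]; simp⟩

lemma N_top_img (p : Pm n) (S : SimpleGraph (Fin n)) : N ⊤ (img p S) = N ⊤ S := by
  rw [N_eq_card, N_eq_card, copiesF_top_img]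

lemma N_le_choose {B S : SimpleGraph (Fin n)} : N B S ≤ (e B).choose (e S) := by
  rw [N_eq_card, e_eq_card B, ← Finset.card_powersetCard]
  refine Finset.card_le_card_of_injOn (fun A => A.edgeFinset) ?_ ?_
  · intro A hA
    obtain ⟨p, hp, rfl⟩ := mem_copiesF.1 (Finset.mem_coe.1 hA)
    apply Finset.mem_coe.2
    rw [mem_powersetCard]
    constructor
    · intro s hs
      rw [SimpleGraph.mem_edgeFinset] at hs ⊢
      exact SimpleGraph.edgeSet_mono hp hs
    · rw [← e_eq_card, e_img]
  · intro A _ A' _ h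
    exact SimpleGraph.edgeFinset_inj.1 h

lemma PP_eq (B S : SimpleGraph (Fin n)) : PP S B = N B S * (stab S).card := card_permsInto B S

/-- The base of the induction: a crude count. -/
lemma PP_base {H B S : SimpleGraph (Fin n)} {q : ℝ} {x : ℕ} (hBH : B ≤ H) (hq : 0 ≤ q)
    (hstar : ∀ F ≤ H, (1 / 2 : ℝ) ≤ (N ⊤ F : ℝ) * q ^ e F)
    (hxB : e B ≤ x) (hs : 1 ≤ e S) :
    (PP S B : ℝ) ≤ (n.factorial : ℝ) * q ^ e S *
      (2 * Real.exp 1 * ((x : ℝ) / e S)) ^ e S := by
  set s := e S with hsdef
  have hs0 : (0 : ℝ) < s := by exact_mod_cast hs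
  have hnn : 0 ≤ (n.factorial : ℝ) * q ^ s * (2 * Real.exp 1 * ((x : ℝ) / s)) ^ s := by positivity
  by_cases hP : PP S B = 0
  · rw [hP]
    simpa using hnn
  · have hne : (permsInto B S).Nonempty := by
      apply Finset.card_pos.1
      exact Nat.pos_of_ne_zero hP
    obtain ⟨p, hp⟩ := hne
    have hp' : img p S ≤ B := mem_permsInto'.1 hp
    have h1 := hstar _ (hp'.trans hBH)
    rw [N_top_img, e_img, ← hsdef] at h1
    have htop : (N ⊤ S : ℝ) * ((stab S).card : ℝ) = n.factorial := by
      exact_mod_cast card_permsInto_top S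
    have hstab0 : (0 : ℝ) ≤ ((stab S).card : ℝ) := by positivity
    have hqs : 0 ≤ q ^ s := by positivity
    have hstab : ((stab S).card : ℝ) ≤ 2 * ((n.factorial : ℝ) * q ^ s) := by
      have : ((stab S).card : ℝ) * (1 / 2) ≤ ((stab S).card : ℝ) * ((N ⊤ S : ℝ) * q ^ s) :=
        mul_le_mul_of_nonneg_left h1 hstab0
      have h2 : ((stab S).card : ℝ) * ((N ⊤ S : ℝ) * q ^ s) = (n.factorial : ℝ) * q ^ s := by
        rw [← htop]
        ring
      linarith
    have hch : (N B S : ℝ) ≤ (x.choose s : ℝ) := by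
      exact_mod_cast N_le_choose.trans (Nat.choose_le_choose _ hxB)
    have hch2 : (x.choose s : ℝ) ≤ (Real.exp 1 * ((x : ℝ) / s)) ^ s := by
      have h1 : (x.choose s : ℝ) ≤ (x : ℝ) ^ s / s.factorial := Nat.choose_le_pow_div s x
      have hf : (0 : ℝ) < s.factorial := by exact_mod_cast Nat.factorial_pos s
      have h2 : (s : ℝ) ^ s / s.factorial ≤ Real.exp s :=
        Real.pow_div_factorial_le_exp (s : ℝ) (by positivity) s
      have h3 : (1 : ℝ) / s.factorial ≤ Real.exp s / (s : ℝ) ^ s := by
        rw [div_le_div_iff₀ hf (by positivity)]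
        rw [div_le_iff₀ hf] at h2
        linarith
      have hexp : Real.exp s = Real.exp 1 ^ s := by
        rw [← Real.exp_nat_mul, mul_one]
      calc (x.choose s : ℝ) ≤ (x : ℝ) ^ s / s.factorial := h1
        _ = (x : ℝ) ^ s * (1 / s.factorial) := by ring
        _ ≤ (x : ℝ) ^ s * (Real.exp s / (s : ℝ) ^ s) := by gcongr
        _ = _ := by
          rw [hexp, mul_pow, div_pow]
          ring
    have h2s : (2 : ℝ) ≤ 2 ^ s := by
      calc (2 : ℝ) = 2 ^ 1 := by norm_num
        _ ≤ 2 ^ s := pow_le_pow_right₀ (by norm_num) hs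
    have hPeq : (PP S B : ℝ) = (N B S : ℝ) * ((stab S).card : ℝ) := by
      rw [PP_eq]
      push_cast
      ring
    have hZ : 0 ≤ (Real.exp 1 * ((x : ℝ) / s)) ^ s := by positivity
    calc (PP S B : ℝ) = (N B S : ℝ) * ((stab S).card : ℝ) := hPeq
      _ ≤ (Real.exp 1 * ((x : ℝ) / s)) ^ s * (2 * ((n.factorial : ℝ) * q ^ s)) := by
        apply mul_le_mul (hch.trans hch2) hstab hstab0 hZ
      _ = (n.factorial : ℝ) * q ^ s * (2 * (Real.exp 1 * ((x : ℝ) / s)) ^ s) := by ring
      _ ≤ (n.factorial : ℝ) * q ^ s * (2 ^ s * (Real.exp 1 * ((x : ℝ) / s)) ^ s) := by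
        gcongr
      _ = _ := by
        rw [← mul_pow]
        ring_nf

lemma exp_one_lt_three' : Real.exp 1 < 2.72 := by
  have := Real.exp_one_lt_d9
  linarith

lemma arith_base {x s : ℕ} (hs : 1 ≤ s) (hsx : s ≤ x) (hbase : x < 32 ∨ x < 8 * s) :
    2 * Real.exp 1 * ((x : ℝ) / s) ≤ 200 * (1 + Real.log ((x : ℝ) / s)) := by
  have hs0 : (0 : ℝ) < s := by exact_mod_cast hs
  have hx1 : (1 : ℝ) ≤ (x : ℝ) / s := by
    rw [le_div_iff₀ hs0]
    simp only [one_mul]
    exact_mod_cast hsx
  have hlog : 0 ≤ Real.log ((x : ℝ) / s) := Real.log_nonneg hx1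
  have hr : (x : ℝ) / s ≤ 32 := by
    rw [div_le_iff₀ hs0]
    rcases hbase with h | h
    · have h1 : (x : ℝ) ≤ 32 := by
        have : x ≤ 32 := by omega
        exact_mod_cast this
      have h2 : (1 : ℝ) ≤ s := by exact_mod_cast hs
      nlinarith
    · have h1 : (x : ℝ) ≤ 8 * s := by
        have : x ≤ 8 * s := by omega
        exact_mod_cast this
      nlinarith
  have he := exp_one_lt_three'
  have he0 : 0 < Real.exp 1 := Real.exp_pos 1
  have hx0 : 0 ≤ (x : ℝ) / s := by positivity
  have h3 : 2 * Real.exp 1 * ((x : ℝ) / s) ≤ 2 * 2.72 * 32 := by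
    apply mul_le_mul _ hr hx0 (by norm_num)
    linarith
  nlinarith

/-- The bound for the terms `y o`. -/
lemma arith_y {x s b o : ℕ} (hs : 1 ≤ s) (hx8 : 8 * s ≤ x) (hx : 32 ≤ x)
    (hb : b = (x + 1) / 2 + s) (ho : o ≤ s) :
    (200 * (1 + |Real.log ((b : ℝ) / o)|)) ^ o ≤
      (200 * (1 + Real.log ((x : ℝ) / s)) - 275 / 4) ^ o * Real.exp (32 / 21) ^ (s - o) := by
  have hs0 : (0 : ℝ) < s := by exact_mod_cast hs
  have hx0 : (0 : ℝ) < x := by
    have : 0 < x := by omega
    exact_mod_cast this
  have hxs : (1 : ℝ) ≤ (x : ℝ) / s := by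
    rw [le_div_iff₀ hs0]
    simp only [one_mul]
    have : s ≤ x := by omega
    exact_mod_cast this
  have hlog0 : 0 ≤ Real.log ((x : ℝ) / s) := Real.log_nonneg hxs
  set G0 : ℝ := 200 * (1 + Real.log ((x : ℝ) / s)) with hG0
  set A : ℝ := G0 - 275 / 4 with hA
  have hA1 : (525 / 4 : ℝ) ≤ A := by
    rw [hA, hG0]
    nlinarith
  have hA0 : 0 < A := by linarith
  rcases Nat.eq_zero_or_pos o with rfl | hopos
  · simp only [pow_zero, one_mul, Nat.sub_zero]
    exact one_le_pow₀ (Real.one_le_exp (by norm_num))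
  · have ho0 : (0 : ℝ) < o := by exact_mod_cast hopos
    have hbpos : (0 : ℝ) < b := by
      have : 0 < b := by omega
      exact_mod_cast this
    have hbo : (1 : ℝ) ≤ (b : ℝ) / o := by
      rw [le_div_iff₀ ho0]
      simp only [one_mul]
      have : o ≤ b := by omega
      exact_mod_cast this
    have hlogbo : 0 ≤ Real.log ((b : ℝ) / o) := Real.log_nonneg hbo
    rw [abs_of_nonneg hlogbo]
    have hsplit : Real.log ((b : ℝ) / o) = Real.log ((b : ℝ) / x) + Real.log ((x : ℝ) / s) +
        Real.log ((s : ℝ) / o) := by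
      rw [← Real.log_mul (by positivity) (by positivity),
        ← Real.log_mul (by positivity) (by positivity)]
      congr 1
      field_simp
    have hbx : (b : ℝ) / x ≤ 21 / 32 := by
      rw [div_le_iff₀ hx0]
      have h1 : 32 * b ≤ 21 * x := by omega
      have h2 : (32 : ℝ) * b ≤ 21 * x := by exact_mod_cast h1
      linarith
    have hlogbx : Real.log ((b : ℝ) / x) ≤ -(11 / 32) := by
      have := Real.log_le_sub_one_of_pos (x := (b : ℝ) / x) (by positivity)
      linarith
    have hso : (1 : ℝ) ≤ (s : ℝ) / o := by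
      rw [le_div_iff₀ ho0]
      simp only [one_mul]
      exact_mod_cast ho
    have hlogso : 0 ≤ Real.log ((s : ℝ) / o) := Real.log_nonneg hso
    have hbase : 200 * (1 + Real.log ((b : ℝ) / o)) ≤ A + 200 * Real.log ((s : ℝ) / o) := by
      rw [hsplit, hA, hG0]
      linarith
    have hbase0 : 0 ≤ 200 * (1 + Real.log ((b : ℝ) / o)) := by positivity
    have hexp : A + 200 * Real.log ((s : ℝ) / o) ≤ A * Real.exp (32 / 21 * Real.log ((s : ℝ) / o)) := by
      have h1 : 1 + 200 / A * Real.log ((s : ℝ) / o) ≤ Real.exp (200 / A * Real.log ((s : ℝ) / o)) := by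
        have := Real.add_one_le_exp (200 / A * Real.log ((s : ℝ) / o))
        linarith
      have h2 : 200 / A ≤ 32 / 21 := by
        rw [div_le_div_iff₀ hA0 (by norm_num)]
        nlinarith
      have h3 : Real.exp (200 / A * Real.log ((s : ℝ) / o)) ≤
          Real.exp (32 / 21 * Real.log ((s : ℝ) / o)) := by
        apply Real.exp_le_exp.2
        exact mul_le_mul_of_nonneg_right h2 hlogso
      calc A + 200 * Real.log ((s : ℝ) / o) = A * (1 + 200 / A * Real.log ((s : ℝ) / o)) := by
            field_simp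
        _ ≤ A * Real.exp (32 / 21 * Real.log ((s : ℝ) / o)) := by
            apply mul_le_mul_of_nonneg_left (h1.trans h3) hA0.le
    have hfinal : Real.exp (32 / 21 * Real.log ((s : ℝ) / o)) ^ o ≤ Real.exp (32 / 21) ^ (s - o) := by
      rw [← Real.exp_nat_mul, ← Real.exp_nat_mul]
      apply Real.exp_le_exp.2
      have h1 : Real.log ((s : ℝ) / o) ≤ (s : ℝ) / o - 1 :=
        Real.log_le_sub_one_of_pos (by positivity)
      have h2 : (o : ℝ) * Real.log ((s : ℝ) / o) ≤ (s : ℝ) - o := by
        calc (o : ℝ) * Real.log ((s : ℝ) / o) ≤ (o : ℝ) * ((s : ℝ) / o - 1) :=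
              mul_le_mul_of_nonneg_left h1 ho0.le
          _ = (s : ℝ) - o := by
              field_simp
      have h3 : ((s - o : ℕ) : ℝ) = (s : ℝ) - o := by
        rw [Nat.cast_sub ho]
      rw [h3]
      nlinarith
    calc (200 * (1 + Real.log ((b : ℝ) / o))) ^ o
        ≤ (A * Real.exp (32 / 21 * Real.log ((s : ℝ) / o))) ^ o :=
          pow_le_pow_left₀ hbase0 (hbase.trans hexp) o
      _ = A ^ o * Real.exp (32 / 21 * Real.log ((s : ℝ) / o)) ^ o := mul_pow _ _ _
      _ ≤ A ^ o * Real.exp (32 / 21) ^ (s - o) := by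
          apply mul_le_mul_of_nonneg_left hfinal
          positivity

lemma nat_mul_pow_le {x : ℕ} (hx : 32 ≤ x) : (x : ℝ) * (3 / 4 : ℝ) ^ x ≤ 1 / 100 := by
  induction x, hx using Nat.le_induction with
  | base => norm_num
  | succ k hk ih =>
    have hk' : (32 : ℝ) ≤ k := by exact_mod_cast hk
    have h0 : 0 ≤ (3 / 4 : ℝ) ^ k := by positivity
    have : ((k + 1 : ℕ) : ℝ) * (3 / 4 : ℝ) ^ (k + 1) ≤ (k : ℝ) * (3 / 4 : ℝ) ^ k := by
      rw [pow_succ]
      push_cast
      nlinarith
    linarith

/-- The error term is small compared to the main term. -/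
lemma arith_eps {x s a h : ℕ} (hs : 1 ≤ s) (hsx : s ≤ x) (hx : 32 ≤ x) (ha : a ≤ x)
    (hh : x ≤ 2 * h) :
    2 ^ a * (2 / Real.exp 2 ^ h) * (200 * (1 + Real.log ((x : ℝ) / s))) ≤ 55 / 4 := by
  have hs0 : (0 : ℝ) < s := by exact_mod_cast hs
  have hx0 : (0 : ℝ) < x := by
    have : 0 < x := by omega
    exact_mod_cast this
  have hs1 : (1 : ℝ) ≤ s := by exact_mod_cast hs
  have hxs : (1 : ℝ) ≤ (x : ℝ) / s := by
    rw [le_div_iff₀ hs0]
    simp only [one_mul]
    exact_mod_cast hsx
  have hlog0 : 0 ≤ Real.log ((x : ℝ) / s) := Real.log_nonneg hxs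
  have hlogx : 1 + Real.log ((x : ℝ) / s) ≤ x := by
    have h1 := Real.log_le_sub_one_of_pos (x := (x : ℝ) / s) (by positivity)
    have h2 : (x : ℝ) / s ≤ x := div_le_self hx0.le hs1
    linarith
  have hexp : Real.exp x ≤ Real.exp 2 ^ h := by
    rw [← Real.exp_nat_mul]
    apply Real.exp_le_exp.2
    have : (x : ℝ) ≤ 2 * h := by exact_mod_cast hh
    linarith
  have hexpx : (0 : ℝ) < Real.exp x := Real.exp_pos _
  have h2x : (2 : ℝ) ^ a ≤ 2 ^ x := pow_le_pow_right₀ (by norm_num) ha
  have hratio : (2 : ℝ) ^ x / Real.exp x ≤ (3 / 4) ^ x := by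
    rw [div_le_iff₀ hexpx]
    have h1 : Real.exp x = Real.exp 1 ^ x := by
      rw [← Real.exp_nat_mul, mul_one]
    rw [h1, ← mul_pow]
    apply pow_le_pow_left₀ (by norm_num)
    have := Real.exp_one_gt_d9
    linarith
  have h3 := nat_mul_pow_le hx
  have h5 : 2 ^ a * (2 / Real.exp 2 ^ h) ≤ 2 * (3 / 4) ^ x := by
    calc 2 ^ a * (2 / Real.exp 2 ^ h) ≤ 2 ^ x * (2 / Real.exp x) := by
          apply mul_le_mul h2x _ (by positivity) (by positivity)
          exact div_le_div_of_nonneg_left (by norm_num) hexpx hexp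
      _ = 2 * (2 ^ x / Real.exp x) := by ring
      _ ≤ 2 * (3 / 4) ^ x := by linarith
  have h6 : 0 ≤ 200 * (1 + Real.log ((x : ℝ) / s)) := by positivity
  calc 2 ^ a * (2 / Real.exp 2 ^ h) * (200 * (1 + Real.log ((x : ℝ) / s)))
      ≤ 2 * (3 / 4) ^ x * (200 * (x : ℝ)) := by
        apply mul_le_mul h5 (by linarith) h6 (by positivity)
    _ = 400 * ((x : ℝ) * (3 / 4 : ℝ) ^ x) := by ring
    _ ≤ 55 / 4 := by linarith

lemma exp_mul_bound : Real.exp (32 / 21) * Real.exp 2 ≤ 55 := by
  rw [← Real.exp_add]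
  have h1 : Real.exp (32 / 21 + 2) ≤ Real.exp 4 := Real.exp_le_exp.2 (by norm_num)
  have h2 : Real.exp 4 = Real.exp 1 ^ 4 := by
    rw [← Real.exp_nat_mul]
    norm_num
  have h3 : Real.exp 1 ^ 4 ≤ (2.72 : ℝ) ^ 4 :=
    pow_le_pow_left₀ (Real.exp_pos 1).le exp_one_lt_three'.le 4
  have h4 : (2.72 : ℝ) ^ 4 ≤ 55 := by norm_num
  linarith

/-- The key estimate: copies of any graph in a subgraph of `H` are controlled by the ratio
of edge numbers. -/
theorem PP_le {H : SimpleGraph (Fin n)} {q : ℝ} (hq0 : 0 ≤ q)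
    (hstar : ∀ F ≤ H, (1 / 2 : ℝ) ≤ (N ⊤ F : ℝ) * q ^ e F) :
    ∀ x : ℕ, ∀ B ≤ H, ∀ S : SimpleGraph (Fin n), e B ≤ x → 1 ≤ e S → e S ≤ x →
      (PP S B : ℝ) ≤ (n.factorial : ℝ) * q ^ e S *
        (200 * (1 + Real.log ((x : ℝ) / e S))) ^ e S := by
  intro x
  induction x using Nat.strong_induction_on with
  | _ x ih =>
    intro B hB S hxB hs hsx
    set s := e S with hsdef
    have hs0 : (0 : ℝ) < s := by exact_mod_cast hs
    have hxs : (1 : ℝ) ≤ (x : ℝ) / s := by
      rw [le_div_iff₀ hs0]
      simp only [one_mul]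
      exact_mod_cast hsx
    have hlog0 : 0 ≤ Real.log ((x : ℝ) / s) := Real.log_nonneg hxs
    by_cases hbase : x < 32 ∨ x < 8 * s
    · have h1 := PP_base hB hq0 hstar hxB hs
      rw [← hsdef] at h1
      refine h1.trans ?_
      have h2 := arith_base hs hsx hbase
      have hn : 0 ≤ (n.factorial : ℝ) * q ^ s := by positivity
      apply mul_le_mul_of_nonneg_left _ hn
      apply pow_le_pow_left₀ (by positivity) h2
    · push Not at hbase
      obtain ⟨hx32, hx8⟩ := hbase
      by_cases hP : PP S B = 0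
      · rw [hP]
        simp only [Nat.cast_zero]
        positivity
      · have hne : (permsInto B S).Nonempty := by
          apply Finset.card_pos.1
          exact Nat.pos_of_ne_zero hP
        obtain ⟨p, hp⟩ := hne
        have hp' : img p S ≤ B := mem_permsInto'.1 hp
        have h1 := hstar _ (hp'.trans hB)
        rw [N_top_img, e_img, ← hsdef] at h1
        have hq : 0 < q := by
          rcases hq0.eq_or_lt with h0 | h0
          · rw [← h0, zero_pow (by omega), mul_zero] at h1
            norm_num at h1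
          · exact h0
        set h := (x + 1) / 2 with hhdef
        set b := h + s with hbdef
        have hb : b = (x + 1) / 2 + s := rfl
        have hbx : b < x := by omega
        have hsb : s ≤ b := by omega
        set y : ℕ → ℝ := fun o => (200 * (1 + |Real.log ((b : ℝ) / o)|)) ^ o with hy
        have hy0 : ∀ o, 0 ≤ y o := by
          intro o
          simp only [hy]
          positivity
        have hybound : ∀ I ⊆ S.edgeFinset, ∀ B' ≤ B, e B' < h + e S →
            (PP (sub S I) B' : ℝ) ≤ (n.factorial : ℝ) * q ^ I.card * y I.card := by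
          intro I hI B' hB' hB'e
          rcases Nat.eq_zero_or_pos I.card with h0 | hpos
          · have hIe : I = ∅ := Finset.card_eq_zero.1 h0
            subst hIe
            rw [PP_sub_empty]
            simp [hy]
          · have heI : e (sub S I) = I.card := e_sub hI
            have hIle : I.card ≤ s := by
              rw [hsdef, e_eq_card]
              exact Finset.card_le_card hI
            have h2 := ih b hbx B' (hB'.trans hB) (sub S I) (by omega) (by omega) (by omega)
            rw [heI] at h2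
            refine h2.trans ?_
            have hn : 0 ≤ (n.factorial : ℝ) * q ^ I.card := by positivity
            apply mul_le_mul_of_nonneg_left _ hn
            simp only [hy]
            have hbo : (1 : ℝ) ≤ (b : ℝ) / I.card := by
              have hI0 : (0 : ℝ) < I.card := by exact_mod_cast hpos
              rw [le_div_iff₀ hI0]
              simp only [one_mul]
              have : I.card ≤ b := by omega
              exact_mod_cast this
            have hl0 := Real.log_nonneg hbo
            apply pow_le_pow_left₀ (by positivity)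
            have := le_abs_self (Real.log ((b : ℝ) / I.card))
            linarith
        have hE : (1 : ℝ) ≤ Real.exp 2 := Real.one_le_exp (by norm_num)
        have hrec := main_rec (τ := S) (A := B) (H := H) (q := q) (E := Real.exp 2) (y := y)
          (h := h) hq hy0 hE hB (by omega) hstar hybound
        -- the arithmetic
        set G0 : ℝ := 200 * (1 + Real.log ((x : ℝ) / s)) with hG0
        set A : ℝ := G0 - 275 / 4 with hA
        have hA1 : (525 / 4 : ℝ) ≤ A := by
          rw [hA, hG0]
          nlinarith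
        have hA0 : 0 < A := by linarith
        have hG1 : 0 < G0 := by linarith
        set M : ℝ := Real.exp (32 / 21) with hM
        have hDD : DD S q (Real.exp 2) y ≤ (n.factorial : ℝ) * q ^ s * (A + 55) ^ s := by
          have hcardS : S.edgeFinset.card = s := by
            rw [hsdef, e_eq_card]
          have hsum : ∑ I ∈ S.edgeFinset.powerset, y I.card * Real.exp 2 ^ (s - I.card) ≤
              ∑ I ∈ S.edgeFinset.powerset, A ^ I.card * (M * Real.exp 2) ^ (s - I.card) := by
            apply Finset.sum_le_sum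
            intro I hI
            have hIle : I.card ≤ s := by
              rw [← hcardS]
              exact Finset.card_le_card (mem_powerset.1 hI)
            have h3 := arith_y hs hx8 hx32 hb hIle
            simp only [hy]
            calc _ ≤ (A ^ I.card * M ^ (s - I.card)) * Real.exp 2 ^ (s - I.card) :=
                  mul_le_mul_of_nonneg_right h3 (by positivity)
              _ = _ := by rw [mul_pow]; ring
          have hbin : ∑ I ∈ S.edgeFinset.powerset, A ^ I.card * (M * Real.exp 2) ^ (s - I.card) =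
              (A + M * Real.exp 2) ^ s := by
            have := Finset.sum_pow_mul_eq_add_pow A (M * Real.exp 2) S.edgeFinset
            rw [hcardS] at this
            exact this
          have hM55 : M * Real.exp 2 ≤ 55 := exp_mul_bound
          have hM0 : 0 < M * Real.exp 2 := by positivity
          have h4 : (A + M * Real.exp 2) ^ s ≤ (A + 55) ^ s :=
            pow_le_pow_left₀ (by positivity) (by linarith) s
          have hDDeq : DD S q (Real.exp 2) y = (n.factorial : ℝ) * q ^ s *
              ∑ I ∈ S.edgeFinset.powerset, y I.card * Real.exp 2 ^ (s - I.card) := by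
            rw [DD, Finset.mul_sum]
            apply Finset.sum_congr rfl
            intro I _
            ring
          rw [hDDeq]
          apply mul_le_mul_of_nonneg_left _ (by positivity)
          linarith
        have heps := arith_eps (a := e B) (h := h) hs hsx hx32 hxB (by omega)
        rw [← hG0] at heps
        set eps : ℝ := 2 ^ e B * (2 / Real.exp 2 ^ h) with heps_def
        have heps0 : 0 ≤ eps := by positivity
        have hratio : (A + 55) ^ s ≤ (1 - eps) * G0 ^ s := by
          have hbase1 : A + 55 = G0 * (1 - (55 / 4) / G0) := by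
            rw [hA]
            field_simp
            ring
          have hc0 : 0 ≤ 1 - (55 / 4) / G0 := by
            have : (55 / 4) / G0 ≤ 1 := by
              rw [div_le_one hG1]
              linarith
            linarith
          have hc1 : 1 - (55 / 4) / G0 ≤ 1 := by
            have : 0 ≤ (55 / 4) / G0 := by positivity
            linarith
          have hc2 : 1 - (55 / 4) / G0 ≤ 1 - eps := by
            have : eps ≤ (55 / 4) / G0 := by
              rw [le_div_iff₀ hG1]
              exact heps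
            linarith
          rw [hbase1, mul_pow]
          have h5 : (1 - (55 / 4) / G0) ^ s ≤ 1 - (55 / 4) / G0 :=
            pow_le_of_le_one hc0 hc1 (by omega)
          have hGs : 0 ≤ G0 ^ s := by positivity
          calc G0 ^ s * (1 - (55 / 4) / G0) ^ s ≤ G0 ^ s * (1 - eps) :=
                mul_le_mul_of_nonneg_left (h5.trans hc2) hGs
            _ = _ := by ring
        have hpos : 0 < 1 - eps := by
          have hc : eps ≤ (55 / 4) / G0 := by
            rw [le_div_iff₀ hG1]
            exact heps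
          have : (55 / 4) / G0 < 1 := by
            rw [div_lt_one hG1]
            linarith
          linarith
        have hfin : (PP S B : ℝ) * (1 - eps) ≤
            ((n.factorial : ℝ) * q ^ s * G0 ^ s) * (1 - eps) := by
          calc (PP S B : ℝ) * (1 - eps) ≤ DD S q (Real.exp 2) y := hrec
            _ ≤ (n.factorial : ℝ) * q ^ s * (A + 55) ^ s := hDD
            _ ≤ (n.factorial : ℝ) * q ^ s * ((1 - eps) * G0 ^ s) := by
              apply mul_le_mul_of_nonneg_left hratio (by positivity)
            _ = _ := by ring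
        exact le_of_mul_le_mul_right hfin hpos

/-- Final estimate: relative count of copies. -/
theorem N_le_ratio {H : SimpleGraph (Fin n)} {q : ℝ} (hq0 : 0 ≤ q)
    (hstar : ∀ F ≤ H, (1 / 2 : ℝ) ≤ (N ⊤ F : ℝ) * q ^ e F)
    {F : SimpleGraph (Fin n)} (hF : F ≤ H) (hs : 1 ≤ e F) :
    (N H F : ℝ) ≤ (N ⊤ F : ℝ) * (200 * (1 + Real.log ((e H : ℝ) / e F)) * q) ^ e F := by
  have hsx : e F ≤ e H := by
    rw [e_eq_card, e_eq_card]
    apply Finset.card_le_card
    exact SimpleGraph.edgeFinset_mono hF
  have h1 := PP_le hq0 hstar (e H) H le_rfl F le_rfl hs hsx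
  rw [PP_eq] at h1
  have hst : (0 : ℝ) < (stab F).card := by exact_mod_cast stab_card_pos F
  have h2 : (N ⊤ F : ℝ) * (stab F).card = n.factorial := by
    exact_mod_cast card_permsInto_top F
  have h3 : (N H F : ℝ) * (stab F).card ≤
      ((N ⊤ F : ℝ) * (200 * (1 + Real.log ((e H : ℝ) / e F)) * q) ^ e F) * (stab F).card := by
    calc (N H F : ℝ) * (stab F).card ≤ _ := by exact_mod_cast h1
      _ = _ := by
        rw [← h2, mul_pow _ q]
        ring
  exact le_of_mul_le_mul_right h3 hst

/-- The number of edges of a graph on `Fin n` is at most `n ^ 2 / 2`. -/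
lemma e_le_sq (H : SimpleGraph (Fin n)) : (e H : ℝ) ≤ (n : ℝ) ^ 2 / 2 := by
  have h := SimpleGraph.card_edgeFinset_le_card_choose_two (G := H)
  rw [Fintype.card_fin] at h
  rw [← e_eq_card] at h
  have h1 : (n.choose 2 : ℝ) = (n : ℝ) * ((n : ℝ) - 1) / 2 := Nat.cast_choose_two ℝ n
  have h2 : (e H : ℝ) ≤ n.choose 2 := by exact_mod_cast h
  rw [h1] at h2
  have hn : (0 : ℝ) ≤ n := Nat.cast_nonneg n
  nlinarith

/-- The polylogarithmic form of the estimate. -/
theorem N_le_log {H : SimpleGraph (Fin n)} (hn : 2 ≤ n) {q : ℝ} (hq0 : 0 ≤ q)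
    (hstar : ∀ F ≤ H, (1 / 2 : ℝ) ≤ (N ⊤ F : ℝ) * q ^ e F)
    {F : SimpleGraph (Fin n)} (hF : F ≤ H) :
    (N H F : ℝ) ≤ (N ⊤ F : ℝ) * (min 1 (500 * Real.log n * q)) ^ e F := by
  have hn2 : (2 : ℝ) ≤ n := by exact_mod_cast hn
  have hlog2 : (0.6931471803 : ℝ) < Real.log 2 := Real.log_two_gt_d9
  have hlogn : Real.log 2 ≤ Real.log n := Real.log_le_log (by norm_num) hn2
  have hlogn0 : 0 < Real.log n := by linarith
  by_cases hmin : 500 * Real.log n * q ≤ 1
  · rw [min_eq_right hmin]
    rcases Nat.eq_zero_or_pos (e F) with h0 | hs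
    · rw [h0, pow_zero, mul_one]
      exact_mod_cast N_le_top H F
    · have h := N_le_ratio hq0 hstar hF hs
      refine h.trans ?_
      have hN : (0 : ℝ) ≤ N ⊤ F := Nat.cast_nonneg _
      apply mul_le_mul_of_nonneg_left _ hN
      have hsx : e F ≤ e H := by
        rw [e_eq_card, e_eq_card]
        apply Finset.card_le_card
        exact SimpleGraph.edgeFinset_mono hF
      have hs0 : (1 : ℝ) ≤ e F := by exact_mod_cast hs
      have hxs : (1 : ℝ) ≤ (e H : ℝ) / e F := by
        rw [le_div_iff₀ (by linarith)]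
        simp only [one_mul]
        exact_mod_cast hsx
      have hl0 : 0 ≤ Real.log ((e H : ℝ) / e F) := Real.log_nonneg hxs
      apply pow_le_pow_left₀ (by positivity)
      apply mul_le_mul_of_nonneg_right _ hq0
      -- `log (x/s) ≤ log (n^2/2) = 2 log n - log 2`
      have hx1 : (e H : ℝ) / e F ≤ (n : ℝ) ^ 2 / 2 :=
        (div_le_self (Nat.cast_nonneg _) hs0).trans (e_le_sq H)
      have hl1 : Real.log ((e H : ℝ) / e F) ≤ 2 * Real.log n - Real.log 2 := by
        have h5 := Real.log_le_log (by linarith) hx1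
        have h6 : Real.log ((n : ℝ) ^ 2 / 2) = 2 * Real.log n - Real.log 2 := by
          rw [Real.log_div (by positivity) (by norm_num), Real.log_pow]
          push_cast
          ring
        rw [h6] at h5
        exact h5
      nlinarith
  · push Not at hmin
    rw [min_eq_left hmin.le, one_pow, mul_one]
    exact_mod_cast N_le_top H F

end Vale.Agent.Lib.P064
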