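import Mathlib
import Vale.Agent.Lib.P064.Count

namespace Vale.Agent.Lib.P064

open Finset

open scoped Classical

variable {n : ℕ}

/-- the graph `F` restricted to the vertex set `W` -/
def rest (F : SimpleGraph (Fin n)) (W : Finset (Fin n)) : SimpleGraph (Fin n) where
  Adj x y := F.Adj x y ∧ x ∈ W ∧ y ∈ W
  symm := ⟨by
    rintro x y ⟨h, hx, hy⟩
    exact ⟨h.symm, hy, hx⟩⟩
  loopless := ⟨by
    rintro x ⟨h, _, _⟩
    exact F.loopless.1 x h⟩

lemma rest_adj (F : SimpleGraph (Fin n)) (W : Finset (Fin n)) (x y : Fin n) :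
    (rest F W).Adj x y ↔ F.Adj x y ∧ x ∈ W ∧ y ∈ W := Iff.rfl

lemma rest_le (F : SimpleGraph (Fin n)) (W : Finset (Fin n)) : rest F W ≤ F := by
  intro x y h
  exact h.1

/-- `W` is a union of components of `F`. -/
def Closed (F : SimpleGraph (Fin n)) (W : Finset (Fin n)) : Prop :=
  ∀ x ∈ W, ∀ y, F.Adj x y → y ∈ W

lemma exists_min_closed {F : SimpleGraph (Fin n)} {a b : Fin n} (hab : F.Adj a b) :
    ∃ W ⊆ supp F, W.Nonempty ∧ Closed F W ∧ Conn F W := by
  classical
  let Fam := (supp F).powerset.filter fun W => W.Nonempty ∧ Closed F W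
  have hne : Fam.Nonempty := by
    refine ⟨supp F, ?_⟩
    simp only [Fam, mem_filter, mem_powerset]
    refine ⟨Finset.Subset.refl _, ⟨a, mem_supp.2 ⟨b, hab⟩⟩, ?_⟩
    intro x _ y hxy
    exact mem_supp.2 ⟨x, hxy.symm⟩
  obtain ⟨W, hW, hmin⟩ := Finset.exists_min_image Fam Finset.card hne
  simp only [Fam, mem_filter, mem_powerset] at hW hmin
  refine ⟨W, hW.1, hW.2.1, hW.2.2, ?_⟩
  intro T hT hTne hTW
  by_contra hcon
  push Not at hcon
  have hcl : Closed F T := by
    intro x hx y hxy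
    by_contra hy
    exact hcon y (hW.2.2 x (hT hx) y hxy) hy x hx hxy
  have := hmin T ⟨hT.trans hW.1, hTne, hcl⟩
  exact hTW (Finset.eq_of_subset_of_card_le hT this)

lemma supp_rest {F : SimpleGraph (Fin n)} {W : Finset (Fin n)} (hW : W ⊆ supp F)
    (hcl : Closed F W) : supp (rest F W) = W := by
  ext x
  rw [mem_supp]
  constructor
  · rintro ⟨y, h⟩
    exact h.2.1
  · intro hx
    obtain ⟨y, hy⟩ := mem_supp.1 (hW hx)
    exact ⟨y, hy, hx, hcl x hx y hy⟩

lemma supp_rest_compl {F : SimpleGraph (Fin n)} {W : Finset (Fin n)}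
    (hcl : Closed F W) : supp (rest F Wᶜ) = supp F \ W := by
  ext x
  rw [mem_supp, mem_sdiff, mem_supp]
  constructor
  · rintro ⟨y, h, hx, _⟩
    exact ⟨⟨y, h⟩, by simpa using hx⟩
  · rintro ⟨⟨y, hy⟩, hx⟩
    refine ⟨y, hy, by simpa using hx, ?_⟩
    simp only [mem_compl]
    intro hyW
    exact hx (hcl y hyW x hy.symm)

lemma conn_rest {F : SimpleGraph (Fin n)} {W : Finset (Fin n)} (h : Conn F W) :
    Conn (rest F W) W := by
  intro T hT hne hTW
  obtain ⟨z, hz, hzT, x, hx, hadj⟩ := h T hT hne hTW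
  exact ⟨z, hz, hzT, x, hx, hadj, hT hx, hz⟩

lemma e_split {F : SimpleGraph (Fin n)} {W : Finset (Fin n)} (hcl : Closed F W) :
    e F = e (rest F W) + e (rest F Wᶜ) := by
  simp_rw [e_eq_card]
  have h1 : F.edgeFinset = (rest F W).edgeFinset ∪ (rest F Wᶜ).edgeFinset := by
    ext s
    induction s using Sym2.ind with
    | _ x y =>
      simp only [mem_union, SimpleGraph.mem_edgeFinset, SimpleGraph.mem_edgeSet, rest_adj,
        mem_compl]
      constructor
      · intro h
        by_cases hx : x ∈ W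
        · exact Or.inl ⟨h, hx, hcl x hx y h⟩
        · refine Or.inr ⟨h, hx, ?_⟩
          intro hy
          exact hx (hcl y hy x h.symm)
      · rintro (h | h) <;> exact h.1
  rw [h1, Finset.card_union_of_disjoint]
  rw [Finset.disjoint_left]
  intro s hs hs'
  induction s using Sym2.ind with
  | _ x y =>
    simp only [SimpleGraph.mem_edgeFinset, SimpleGraph.mem_edgeSet, rest_adj, mem_compl] at hs hs'
    exact hs'.2.1 hs.2.1

lemma mem_permsInto {H F : SimpleGraph (Fin n)} {p : Pm n} :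
    p ∈ permsInto H F ↔ img p F ≤ H := by
  simp [permsInto]

lemma permsInto_mono {H F F' : SimpleGraph (Fin n)} (h : F' ≤ F) {p : Pm n}
    (hp : p ∈ permsInto H F) : p ∈ permsInto H F' := by
  rw [mem_permsInto, img_le_iff] at hp ⊢
  intro x y hxy
  exact hp x y (h hxy)

lemma card_R_split {H F : SimpleGraph (Fin n)} {W : Finset (Fin n)} (hW : W ⊆ supp F)
    (hcl : Closed F W) :
    (R H F).card ≤ (R H (rest F W)).card * (R H (rest F Wᶜ)).card := by
  rw [← Finset.card_product]
  refine Finset.card_le_card_of_injOn (fun g => (cut W g, cut (supp F \ W) g)) ?_ ?_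
  · intro g hg
    obtain ⟨p, hp, rfl⟩ := mem_image.1 (Finset.mem_coe.1 hg)
    simp only [coe_product, Set.mem_prod, mem_coe]
    constructor
    · rw [cut_res hW]
      refine mem_image.2 ⟨p, permsInto_mono (rest_le F W) hp, ?_⟩
      rw [supp_rest hW hcl]
    · rw [cut_res sdiff_subset]
      refine mem_image.2 ⟨p, permsInto_mono (rest_le F Wᶜ) hp, ?_⟩
      rw [supp_rest_compl hcl]
  · intro g hg g' hg' hgg
    obtain ⟨p, _, rfl⟩ := mem_image.1 (Finset.mem_coe.1 hg)
    obtain ⟨r, _, rfl⟩ := mem_image.1 (Finset.mem_coe.1 hg')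
    simp only [Prod.mk.injEq] at hgg
    funext u
    by_cases huS : u ∈ supp F
    · by_cases huW : u ∈ W
      · have := congrFun hgg.1 u
        simpa [cut, huW] using this
      · have := congrFun hgg.2 u
        have hu2 : u ∈ supp F \ W := mem_sdiff.2 ⟨huS, huW⟩
        simpa [cut, hu2] using this
    · simp [res, huS]

lemma card_R_bot {H F : SimpleGraph (Fin n)} (hF : ∀ a b, ¬ F.Adj a b) : (R H F).card ≤ 1 := by
  rw [Finset.card_le_one]
  intro g hg g' hg'
  obtain ⟨p, _, rfl⟩ := mem_image.1 hg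
  obtain ⟨r, _, rfl⟩ := mem_image.1 hg'
  funext u
  have : u ∉ supp F := by
    rw [mem_supp]
    rintro ⟨y, hy⟩
    exact hF _ _ hy
  simp [res, this]

lemma supp_eq_empty {F : SimpleGraph (Fin n)} (hF : ∀ a b, ¬ F.Adj a b) : supp F = ∅ := by
  ext x
  simp only [mem_supp, notMem_empty, iff_false]
  rintro ⟨y, hy⟩
  exact hF _ _ hy

lemma arith_conn {e1 v1 D : ℕ} (he1 : 1 ≤ e1) (hv : v1 ≤ e1 + 1) (hD : 1 ≤ D) :
    4 * (e1 : ℝ) ^ 2 * (2 * Real.exp 1) * (D : ℝ) ^ (v1 - 2) ≤ (88 * (D : ℝ)) ^ e1 := by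
  have hD' : (1 : ℝ) ≤ D := by exact_mod_cast hD
  have h1 : (D : ℝ) ^ (v1 - 2) ≤ (D : ℝ) ^ e1 := pow_le_pow_right₀ hD' (by omega)
  have h2 : (e1 : ℝ) ^ 2 ≤ 4 ^ e1 := by
    have : e1 < 2 ^ e1 := Nat.lt_two_pow_self
    have h3 : (e1 : ℝ) ≤ 2 ^ e1 := by exact_mod_cast this.le
    calc (e1 : ℝ) ^ 2 ≤ ((2 : ℝ) ^ e1) ^ 2 := by gcongr
      _ = 4 ^ e1 := by
        rw [← pow_mul, mul_comm, pow_mul]
        norm_num
  have h3 : 4 * (2 * Real.exp 1) ≤ (22 : ℝ) := by
    have := Real.exp_one_lt_d9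
    linarith
  have h4 : (22 : ℝ) ≤ 22 ^ e1 := by
    calc (22 : ℝ) = 22 ^ 1 := by norm_num
      _ ≤ 22 ^ e1 := pow_le_pow_right₀ (by norm_num) he1
  have hexp : 0 < Real.exp 1 := Real.exp_pos 1
  calc 4 * (e1 : ℝ) ^ 2 * (2 * Real.exp 1) * (D : ℝ) ^ (v1 - 2)
      = (4 * (2 * Real.exp 1)) * (e1 : ℝ) ^ 2 * (D : ℝ) ^ (v1 - 2) := by ring
    _ ≤ 22 ^ e1 * 4 ^ e1 * (D : ℝ) ^ e1 := by
      have h5 : 4 * (2 * Real.exp 1) ≤ (22 : ℝ) ^ e1 := h3.trans h4
      gcongr
    _ = (88 * (D : ℝ)) ^ e1 := by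
      rw [← mul_pow, ← mul_pow]
      norm_num

/-- The main counting bound. -/
theorem card_R_le {H : SimpleGraph (Fin n)} {q : ℝ} {D : ℕ}
    (hq : 0 ≤ q)
    (hstar : ∀ F' ≤ H, (1 / 2 : ℝ) ≤ (N ⊤ F' : ℝ) * q ^ e F')
    (hD : ∀ u, (H.neighborFinset u).card ≤ D) (hD1 : 1 ≤ D) :
    ∀ k, ∀ F ≤ H, e F = k →
      ((R H F).card : ℝ) ≤ (n : ℝ) ^ (supp F).card * (88 * (D : ℝ) * q) ^ e F := by
  intro k
  induction k using Nat.strong_induction_on with
  | _ k ih =>
    intro F hFH hek
    by_cases hedge : ∃ a b, F.Adj a b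
    · obtain ⟨a, b, hab⟩ := hedge
      obtain ⟨W, hWS, hWne, hcl, hconn⟩ := exists_min_closed hab
      set F1 := rest F W with hF1
      set F2 := rest F Wᶜ with hF2
      have hsplit : e F = e F1 + e F2 := e_split hcl
      have hF1le : F1 ≤ H := (rest_le F W).trans hFH
      have hF2le : F2 ≤ H := (rest_le F Wᶜ).trans hFH
      have he1 : 1 ≤ e F1 := by
        obtain ⟨x, hx⟩ := hWne
        obtain ⟨y, hy⟩ := mem_supp.1 (hWS hx)
        have hadj : F1.Adj x y := ⟨hy, hx, hcl x hx y hy⟩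
        rw [e_eq_card]
        apply Finset.card_pos.2
        exact ⟨s(x, y), by simpa using hadj⟩
      have hsupp1 : supp F1 = W := supp_rest hWS hcl
      have hsupp2 : supp F2 = supp F \ W := supp_rest_compl hcl
      have hcard : (supp F).card = (supp F1).card + (supp F2).card := by
        rw [hsupp1, hsupp2, Finset.card_sdiff_add_card_eq_card hWS |>.symm]
        omega
      have hconn1 : Conn F1 (supp F1) := by
        rw [hsupp1]
        exact conn_rest hconn
      obtain ⟨w0, hw0⟩ := hWne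
      have hv1 : (supp F1).card ≤ e F1 + 1 := by
        rw [e_eq_card]
        exact card_le_edges_add_one hconn1 (by rw [hsupp1]; exact hw0)
      have hb1 := card_R_conn_le hq hstar hD he1 hconn1 (H := H)
      have hb2 := ih (e F2) (by omega) F2 hF2le rfl
      have hsplitR := card_R_split (H := H) hWS hcl
      have hn : (0 : ℝ) ≤ n := by positivity
      have hKq : 0 ≤ 88 * (D : ℝ) * q := by positivity
      have harith := arith_conn he1 hv1 hD1
      have hb1' : ((R H F1).card : ℝ) ≤ (n : ℝ) ^ (supp F1).card * (88 * (D : ℝ) * q) ^ e F1 := by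
        calc ((R H F1).card : ℝ)
            ≤ 4 * (e F1 : ℝ) ^ 2 * (2 * Real.exp 1 * (n : ℝ) ^ (supp F1).card * q ^ e F1) *
                (D : ℝ) ^ ((supp F1).card - 2) := hb1
          _ = (n : ℝ) ^ (supp F1).card * q ^ e F1 *
                (4 * (e F1 : ℝ) ^ 2 * (2 * Real.exp 1) * (D : ℝ) ^ ((supp F1).card - 2)) := by ring
          _ ≤ (n : ℝ) ^ (supp F1).card * q ^ e F1 * (88 * (D : ℝ)) ^ e F1 := by
            gcongr
          _ = _ := by
            rw [mul_pow (88 * (D : ℝ)) q]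
            ring
      calc ((R H F).card : ℝ) ≤ ((R H F1).card : ℝ) * ((R H F2).card : ℝ) := by
            exact_mod_cast hsplitR
        _ ≤ ((n : ℝ) ^ (supp F1).card * (88 * (D : ℝ) * q) ^ e F1) *
              ((n : ℝ) ^ (supp F2).card * (88 * (D : ℝ) * q) ^ e F2) := by
            gcongr
        _ = _ := by
            rw [hcard, hsplit, pow_add, pow_add]
            ring
    · push Not at hedge
      have h1 := card_R_bot (H := H) hedge
      have h2 := supp_eq_empty hedge
      have h3 : e F = 0 := by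
        rw [e_eq_card, Finset.card_eq_zero]
        ext s
        induction s using Sym2.ind with
        | _ x y => simp [hedge]
      rw [h2, h3]
      simp only [Finset.card_empty, pow_zero, mul_one]
      exact_mod_cast h1

lemma pow_mul_factorial_le {n v : ℕ} (h : v ≤ n) :
    (n : ℝ) ^ v * ((n - v).factorial : ℝ) ≤ Real.exp v * (n.factorial : ℝ) := by
  induction v generalizing n with
  | zero => simp
  | succ v ih =>
    obtain ⟨m, rfl⟩ : ∃ m, n = m + 1 := ⟨n - 1, by omega⟩
    have hvm : v ≤ m := by omega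
    have h1 := ih hvm
    have hm : (0 : ℝ) ≤ m := by positivity
    have h2 : ((m : ℝ) + 1) ^ v ≤ Real.exp 1 * (m : ℝ) ^ v := by
      rcases Nat.eq_zero_or_pos m with rfl | hpos
      · have : v = 0 := by omega
        subst this
        simp only [pow_zero, mul_one]
        exact Real.one_le_exp (by norm_num)
      · have hm0 : (0 : ℝ) < m := by exact_mod_cast hpos
        have h3 : (1 + 1 / (m : ℝ)) ≤ Real.exp (1 / (m : ℝ)) := by
          have := Real.add_one_le_exp (1 / (m : ℝ))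
          linarith
        have h4 : (1 + 1 / (m : ℝ)) ^ v ≤ Real.exp ((v : ℝ) * (1 / (m : ℝ))) := by
          rw [Real.exp_nat_mul]
          gcongr
        have h5 : Real.exp ((v : ℝ) * (1 / (m : ℝ))) ≤ Real.exp 1 := by
          apply Real.exp_le_exp.2
          have hv : (v : ℝ) ≤ m := by exact_mod_cast hvm
          rw [mul_one_div, div_le_one hm0]
          exact hv
        calc ((m : ℝ) + 1) ^ v = (1 + 1 / (m : ℝ)) ^ v * (m : ℝ) ^ v := by
              rw [← mul_pow]
              congr 1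
              field_simp
          _ ≤ Real.exp 1 * (m : ℝ) ^ v := by
              gcongr
              exact h4.trans h5
    have h6 : m + 1 - (v + 1) = m - v := by omega
    rw [h6, Nat.factorial_succ]
    push_cast
    have hexp : Real.exp ((v : ℝ) + 1) = Real.exp v * Real.exp 1 := by
      rw [Real.exp_add]
    rw [hexp]
    have hfac : (0 : ℝ) ≤ ((m - v).factorial : ℝ) := by positivity
    calc ((m : ℝ) + 1) ^ (v + 1) * ((m - v).factorial : ℝ)
        = ((m : ℝ) + 1) * (((m : ℝ) + 1) ^ v * ((m - v).factorial : ℝ)) := by ring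
      _ ≤ ((m : ℝ) + 1) * ((Real.exp 1 * (m : ℝ) ^ v) * ((m - v).factorial : ℝ)) := by gcongr
      _ = ((m : ℝ) + 1) * Real.exp 1 * ((m : ℝ) ^ v * ((m - v).factorial : ℝ)) := by ring
      _ ≤ ((m : ℝ) + 1) * Real.exp 1 * (Real.exp v * (m.factorial : ℝ)) := by gcongr
      _ = _ := by ring

lemma card_supp_le (F : SimpleGraph (Fin n)) : (supp F).card ≤ 2 * e F := by
  rw [e_eq_card, ← SimpleGraph.dart_card_eq_twice_card_edges, ← Finset.card_univ]
  have hsub : supp F ⊆ (univ : Finset F.Dart).image fun d => d.fst := by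
    intro x hx
    obtain ⟨y, hy⟩ := mem_supp.1 hx
    exact mem_image.2 ⟨⟨(x, y), hy⟩, mem_univ _, rfl⟩
  exact (Finset.card_le_card hsub).trans Finset.card_image_le

lemma card_permsInto_le (H F : SimpleGraph (Fin n)) :
    (permsInto H F).card ≤ (n - (supp F).card).factorial * (R H F).card := by
  apply Finset.card_le_mul_card_image
  intro g _
  refine le_trans (Finset.card_le_card ?_) (card_fiber_res (supp F) g)
  intro p hp
  simp only [mem_filter, mem_univ, true_and] at hp ⊢
  exact hp.2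

/-- The bounded degree theorem, with the bound in the form of a product. -/
theorem N_le_of_degree {H : SimpleGraph (Fin n)} {q : ℝ} {D : ℕ}
    (hq : 0 ≤ q)
    (hstar : ∀ F' ≤ H, (1 / 2 : ℝ) ≤ (N ⊤ F' : ℝ) * q ^ e F')
    (hD : ∀ u, (H.neighborFinset u).card ≤ D) (hD1 : 1 ≤ D) (F : SimpleGraph (Fin n))
    (hF : F ≤ H) :
    (N H F : ℝ) ≤ N ⊤ F * (Real.exp 2 * (88 * (D : ℝ) * q)) ^ e F := by
  have hR := card_R_le hq hstar hD hD1 _ F hF rfl
  set v := (supp F).card with hv
  have hvn : v ≤ n := by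
    have := Finset.card_le_univ (supp F)
    simpa using this
  have hv2 : v ≤ 2 * e F := card_supp_le F
  have h1 := card_permsInto_le H F
  have h2 := pow_mul_factorial_le hvn
  have hs : (0 : ℝ) < (stab F).card := by exact_mod_cast stab_card_pos F
  have hKq : 0 ≤ 88 * (D : ℝ) * q := by positivity
  have hKqe : 0 ≤ (88 * (D : ℝ) * q) ^ e F := by positivity
  have h3 : ((permsInto H F).card : ℝ) ≤ ((n - v).factorial : ℝ) * ((R H F).card : ℝ) := by
    exact_mod_cast h1
  have h4 : Real.exp v ≤ Real.exp 2 ^ e F := by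
    rw [← Real.exp_nat_mul]
    apply Real.exp_le_exp.2
    have : (v : ℝ) ≤ 2 * (e F : ℝ) := by exact_mod_cast hv2
    linarith
  have h5 : (N H F : ℝ) * (stab F).card = (permsInto H F).card := by
    rw [card_permsInto]
    push_cast
    ring
  have h6 : (N ⊤ F : ℝ) * (stab F).card = n.factorial := by
    exact_mod_cast card_permsInto_top F
  have h7 : (N H F : ℝ) * (stab F).card ≤
      ((N ⊤ F : ℝ) * (Real.exp 2 * (88 * (D : ℝ) * q)) ^ e F) * (stab F).card := by
    rw [h5]
    calc ((permsInto H F).card : ℝ) ≤ ((n - v).factorial : ℝ) * ((R H F).card : ℝ) := h3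
      _ ≤ ((n - v).factorial : ℝ) * ((n : ℝ) ^ v * (88 * (D : ℝ) * q) ^ e F) := by gcongr
      _ = ((n : ℝ) ^ v * ((n - v).factorial : ℝ)) * (88 * (D : ℝ) * q) ^ e F := by ring
      _ ≤ (Real.exp v * (n.factorial : ℝ)) * (88 * (D : ℝ) * q) ^ e F := by gcongr
      _ ≤ (Real.exp 2 ^ e F * (n.factorial : ℝ)) * (88 * (D : ℝ) * q) ^ e F := by gcongr
      _ = _ := by
        rw [← h6, mul_pow]
        ring
  exact le_of_mul_le_mul_right h7 hs

end Vale.Agent.Lib.P064
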